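import Vale.Agent.Lib.P328.Hive.Count

/-!
# Frozen classes, unit moves and the column energy

Setting for the comparison lemma (P) of the all-margins row-pair bound.  Tables live on an
ambient cell set `E₀`; a rectangle `P ×ˢ Q` of cells is free and all other cells are frozen
to the values of a reference pattern `Φ`.  For a signed margin vector `D` the class of the
column `l` is `Kl E₀ P Q Φ (Dl D l)`: column `l` carries one unit fewer than `D` prescribes.
An edge moves one unit inside a free row from column `l'` to column `l`; it leads from the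
class of `l` to the class of `l'`.
-/

namespace Vale.Agent.Lib.P328.Poly

open Finset Vale.Agent.Lib.P328.Hive

variable {R C : Type*} [Fintype R] [Fintype C] [DecidableEq R] [DecidableEq C]

/-- The unit vector of the column `v` in the space of signed margins. -/
def eC (v : C) : R ⊕ C → ℤ := Pi.single (Sum.inr v) 1

/-- The signed margins of the class of the column `l`: one unit fewer in column `l`. -/
def Dl (D : R ⊕ C → ℤ) (l : C) : R ⊕ C → ℤ := D + eC l

/-- The finite set of tables on `E` with signed margins `D`. -/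
noncomputable def OmF (E : Finset (R × C)) (D : R ⊕ C → ℤ) : Finset (R × C → ℕ) :=
  (Om_finite E D).toFinset

/-- Tables on `E₀` with signed margins `D` that agree with `Φ` outside the rectangle `P ×ˢ Q`. -/
noncomputable def Kl (E₀ : Finset (R × C)) (P : Finset R) (Q : Finset C) (Φ : R × C → ℕ)
    (D : R ⊕ C → ℤ) : Finset (R × C → ℕ) :=
  (OmF E₀ D).filter (fun T => ∀ e, e ∉ P ×ˢ Q → T e = Φ e)

/-- Move one unit in row `u` from column `l'` to column `l`. -/
def move (T : R × C → ℕ) (u : R) (l l' : C) : R × C → ℕ :=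
  Function.update (Function.update T (u, l) (T (u, l) + 1)) (u, l') (T (u, l') - 1)

/-- Add one unit at the cell `(u, s)`. -/
def bump (Φ : R × C → ℕ) (u : R) (s : C) : R × C → ℕ :=
  Function.update Φ (u, s) (Φ (u, s) + 1)

/-- The column `s` of a table. -/
def colKey (s : C) (A : R × C → ℕ) : R → ℕ := fun u => A (u, s)

/-- The row `u` of a table. -/
def rowKey (u : R) (A : R × C → ℕ) : C → ℕ := fun l => A (u, l)

/-- The average of `F` over a finite set. -/
noncomputable def avg {α : Type*} (S : Finset α) (F : α → ℝ) : ℝ := (∑ x ∈ S, F x) / S.card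

/-- The weight of the edge that moves a unit of row `u` of `A` from column `l'` to column `l`. -/
noncomputable def ew (F : (R × C → ℕ) → ℝ) (A : R × C → ℕ) (u : R) (l l' : C) : ℝ :=
  if 1 ≤ A (u, l') then (F (move A u l l') - F A) ^ 2 else 0

/-- The energy of `F` over all edges between the classes of the free columns. -/
noncomputable def En (E₀ : Finset (R × C)) (P : Finset R) (Q : Finset C) (Φ : R × C → ℕ)
    (D : R ⊕ C → ℤ) (F : (R × C → ℕ) → ℝ) : ℝ :=
  ∑ l ∈ Q, ∑ A ∈ Kl E₀ P Q Φ (Dl D l), ∑ u ∈ P, ∑ l' ∈ Q.erase l, ew F A u l l'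

/-- The energy over the edges whose target has the key `k`. -/
noncomputable def EnK {κ : Type*} [DecidableEq κ] (E₀ : Finset (R × C)) (P : Finset R)
    (Q : Finset C) (Φ : R × C → ℕ) (D : R ⊕ C → ℤ) (F : (R × C → ℕ) → ℝ)
    (key : (R × C → ℕ) → κ) (k : κ) : ℝ :=
  ∑ l ∈ Q, ∑ A ∈ Kl E₀ P Q Φ (Dl D l), ∑ u ∈ P, ∑ l' ∈ Q.erase l,
    if key (move A u l l') = k then ew F A u l l' else 0

/-- The energy of the edges that move a unit of row `u` out of a free column into the frozen
column `s`, started from the class of `s`. -/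
noncomputable def En1 (E₀ : Finset (R × C)) (P : Finset R) (Q : Finset C) (Φ : R × C → ℕ)
    (D : R ⊕ C → ℤ) (u : R) (s : C) (F : (R × C → ℕ) → ℝ) : ℝ :=
  ∑ A ∈ Kl E₀ P Q Φ (Dl D s), ∑ l ∈ Q, ew F A u s l

/-- A coupling of the uniform laws on `X` and on `Y`. -/
def IsCpl {α β : Type*} (X : Finset α) (Y : Finset β) (W : α → β → ℝ) : Prop :=
  (∀ x y, 0 ≤ W x y) ∧ (∀ x ∈ X, ∑ y ∈ Y, W x y = 1 / X.card) ∧
    (∀ y ∈ Y, ∑ x ∈ X, W x y = 1 / Y.card)

theorem mem_OmF {E : Finset (R × C)} {D : R ⊕ C → ℤ} {T : R × C → ℕ} :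
    T ∈ OmF E D ↔ T ∈ Om E D := by
  unfold OmF
  exact Set.Finite.mem_toFinset _

theorem card_OmF (E : Finset (R × C)) (D : R ⊕ C → ℤ) : (OmF E D).card = cnt E D := by
  unfold OmF cnt
  exact (Set.ncard_eq_toFinset_card _ _).symm

theorem mem_Kl {E₀ : Finset (R × C)} {P : Finset R} {Q : Finset C} {Φ : R × C → ℕ}
    {D : R ⊕ C → ℤ} {T : R × C → ℕ} :
    T ∈ Kl E₀ P Q Φ D ↔
      (∀ e, e ∉ E₀ → T e = 0) ∧ dv T = D ∧ ∀ e, e ∉ P ×ˢ Q → T e = Φ e := by
  unfold Kl
  rw [Finset.mem_filter, mem_OmF]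
  constructor
  · rintro ⟨⟨h1, h2⟩, h3⟩
    exact ⟨h1, h2, h3⟩
  · rintro ⟨h1, h2, h3⟩
    exact ⟨⟨h1, h2⟩, h3⟩

theorem ew_nonneg (F : (R × C → ℕ) → ℝ) (A : R × C → ℕ) (u : R) (l l' : C) :
    0 ≤ ew F A u l l' := by
  unfold ew
  split_ifs
  · exact sq_nonneg _
  · exact le_refl _

end Vale.Agent.Lib.P328.Poly
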