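import Vale.Agent.Lib.P328.Poly.Defs

/-!
# Frozen classes: change of pattern, fibres by a row or a column, unit moves
-/

namespace Vale.Agent.Lib.P328.Poly

open Finset Vale.Agent.Lib.P328.Hive

variable {R C : Type*} [Fintype R] [Fintype C] [DecidableEq R] [DecidableEq C]
variable {E₀ : Finset (R × C)} {P : Finset R} {Q : Finset C} {Φ Φ' T A : R × C → ℕ}
variable {D D' : R ⊕ C → ℤ}

theorem Kl_congr (D : R ⊕ C → ℤ) (h : ∀ e, e ∉ P ×ˢ Q → Φ e = Φ' e) :
    Kl E₀ P Q Φ D = Kl E₀ P Q Φ' D := by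
  ext A
  rw [mem_Kl, mem_Kl]
  constructor
  · rintro ⟨h1, h2, h3⟩
    exact ⟨h1, h2, fun e he => (h3 e he).trans (h e he)⟩
  · rintro ⟨h1, h2, h3⟩
    exact ⟨h1, h2, fun e he => (h3 e he).trans (h e he).symm⟩

theorem self_mem_Kl (hT : T ∈ Kl E₀ P Q Φ D) (P' : Finset R) (Q' : Finset C) :
    T ∈ Kl E₀ P' Q' T D := by
  rw [mem_Kl] at hT ⊢
  exact ⟨hT.1, hT.2.1, fun _ _ => rfl⟩

theorem Kl_col_fiber (hT : T ∈ Kl E₀ P Q Φ D) (s : C) :
    Kl E₀ P (Q.erase s) T D = (Kl E₀ P Q Φ D).filter (fun A => colKey s A = colKey s T) := by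
  rw [mem_Kl] at hT
  obtain ⟨_, _, hT3⟩ := hT
  ext A
  rw [Finset.mem_filter, mem_Kl, mem_Kl]
  constructor
  · rintro ⟨h1, h2, h3⟩
    refine ⟨⟨h1, h2, fun e he => ?_⟩, ?_⟩
    · have he' : e ∉ P ×ˢ Q.erase s := by
        intro hmem
        apply he
        rw [Finset.mem_product] at hmem ⊢
        exact ⟨hmem.1, Finset.mem_of_mem_erase hmem.2⟩
      rw [h3 e he', hT3 e he]
    · funext u
      unfold colKey
      apply h3
      intro hmem
      rw [Finset.mem_product] at hmem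
      exact Finset.notMem_erase s Q hmem.2
  · rintro ⟨⟨h1, h2, h3⟩, h4⟩
    refine ⟨h1, h2, fun e he => ?_⟩
    by_cases hPQ : e ∈ P ×ˢ Q
    · have hs : e.2 = s := by
        by_contra hne
        apply he
        rw [Finset.mem_product] at hPQ ⊢
        exact ⟨hPQ.1, Finset.mem_erase.mpr ⟨hne, hPQ.2⟩⟩
      have h5 := congrFun h4 e.1
      unfold colKey at h5
      rw [← hs] at h5
      exact h5
    · rw [h3 e hPQ, hT3 e hPQ]

theorem Kl_row_fiber (hT : T ∈ Kl E₀ P Q Φ D) (u : R) :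
    Kl E₀ (P.erase u) Q T D = (Kl E₀ P Q Φ D).filter (fun A => rowKey u A = rowKey u T) := by
  rw [mem_Kl] at hT
  obtain ⟨_, _, hT3⟩ := hT
  ext A
  rw [Finset.mem_filter, mem_Kl, mem_Kl]
  constructor
  · rintro ⟨h1, h2, h3⟩
    refine ⟨⟨h1, h2, fun e he => ?_⟩, ?_⟩
    · have he' : e ∉ P.erase u ×ˢ Q := by
        intro hmem
        apply he
        rw [Finset.mem_product] at hmem ⊢
        exact ⟨Finset.mem_of_mem_erase hmem.1, hmem.2⟩
      rw [h3 e he', hT3 e he]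
    · funext l
      unfold rowKey
      apply h3
      intro hmem
      rw [Finset.mem_product] at hmem
      exact Finset.notMem_erase u P hmem.1
  · rintro ⟨⟨h1, h2, h3⟩, h4⟩
    refine ⟨h1, h2, fun e he => ?_⟩
    by_cases hPQ : e ∈ P ×ˢ Q
    · have hs : e.1 = u := by
        by_contra hne
        apply he
        rw [Finset.mem_product] at hPQ ⊢
        exact ⟨Finset.mem_erase.mpr ⟨hne, hPQ.1⟩, hPQ.2⟩
      have h5 := congrFun h4 e.2
      unfold rowKey at h5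
      rw [← hs] at h5
      exact h5
    · rw [h3 e hPQ, hT3 e hPQ]

theorem Kl_col_sub (hT : ∀ e, e ∉ P ×ˢ Q → T e = Φ e) (s : C) (D' : R ⊕ C → ℤ) :
    Kl E₀ P (Q.erase s) T D' ⊆ Kl E₀ P Q Φ D' := by
  intro A hA
  rw [mem_Kl] at hA ⊢
  obtain ⟨h1, h2, h3⟩ := hA
  refine ⟨h1, h2, fun e he => ?_⟩
  have he' : e ∉ P ×ˢ Q.erase s := by
    intro hmem
    apply he
    rw [Finset.mem_product] at hmem ⊢
    exact ⟨hmem.1, Finset.mem_of_mem_erase hmem.2⟩
  rw [h3 e he', hT e he]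

theorem Kl_row_sub (hT : ∀ e, e ∉ P ×ˢ Q → T e = Φ e) (u : R) (D' : R ⊕ C → ℤ) :
    Kl E₀ (P.erase u) Q T D' ⊆ Kl E₀ P Q Φ D' := by
  intro A hA
  rw [mem_Kl] at hA ⊢
  obtain ⟨h1, h2, h3⟩ := hA
  refine ⟨h1, h2, fun e he => ?_⟩
  have he' : e ∉ P.erase u ×ˢ Q := by
    intro hmem
    apply he
    rw [Finset.mem_product] at hmem ⊢
    exact ⟨Finset.mem_of_mem_erase hmem.1, hmem.2⟩
  rw [h3 e he', hT e he]

omit [Fintype R] [Fintype C] in
theorem move_of_ne (T : R × C → ℕ) (u : R) (l l' : C) (e : R × C) (h1 : e ≠ (u, l))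
    (h2 : e ≠ (u, l')) : move T u l l' e = T e := by
  unfold move
  rw [Function.update_of_ne h2, Function.update_of_ne h1]

omit [Fintype R] [Fintype C] in
theorem move_fst (T : R × C → ℕ) (u : R) {l l' : C} (hne : l ≠ l') :
    move T u l l' (u, l) = T (u, l) + 1 := by
  unfold move
  have h : (u, l) ≠ (u, l') := fun h => hne (Prod.ext_iff.mp h).2
  rw [Function.update_of_ne h, Function.update_self]

omit [Fintype R] [Fintype C] in
theorem move_snd (T : R × C → ℕ) (u : R) (l l' : C) :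
    move T u l l' (u, l') = T (u, l') - 1 := by
  unfold move
  rw [Function.update_self]

theorem dv_move (T : R × C → ℕ) (u : R) {l l' : C} (hne : l ≠ l') (hpos : 1 ≤ T (u, l')) :
    dv (move T u l l') = dv T - eC l + eC l' := by
  have h : (u, l') ≠ (u, l) := fun h => hne (Prod.ext_iff.mp h).2.symm
  unfold move
  rw [dv_update, dv_update, Function.update_of_ne h]
  have e1 : (((T (u, l) + 1 : ℕ) : ℤ) - (T (u, l) : ℤ)) = 1 := by
    push_cast
    ring
  have e2 : (((T (u, l') - 1 : ℕ) : ℤ) - (T (u, l') : ℤ)) = -1 := by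
    rw [Nat.cast_sub hpos]
    push_cast
    ring
  rw [e1, e2]
  unfold chi eC
  simp only [one_smul, neg_smul]
  abel

omit [Fintype R] [Fintype C] in
theorem move_move (T : R × C → ℕ) (u : R) {l l' : C} (hne : l ≠ l') (hpos : 1 ≤ T (u, l')) :
    move (move T u l l') u l' l = T := by
  funext e
  by_cases h1 : e = (u, l')
  · rw [h1, move_fst _ u (Ne.symm hne), move_snd]
    omega
  · by_cases h2 : e = (u, l)
    · rw [h2, move_snd, move_fst _ u hne]
      omega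
    · rw [move_of_ne _ u l' l e h1 h2, move_of_ne _ u l l' e h2 h1]

theorem move_mem_Kl {u : R} {l l' : C} (hA : A ∈ Kl E₀ P Q Φ D') (hne : l ≠ l')
    (hpos : 1 ≤ A (u, l')) (hE : (u, l) ∈ E₀) :
    move A u l l' ∈ Kl E₀ P Q (move Φ u l l') (D' - eC l + eC l') := by
  rw [mem_Kl] at hA ⊢
  obtain ⟨h1, h2, h3⟩ := hA
  refine ⟨fun e he => ?_, ?_, fun e he => ?_⟩
  · have e1 : e ≠ (u, l) := fun h => he (h ▸ hE)
    have e2 : e ≠ (u, l') := by
      intro h
      have h0 := h1 e he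
      rw [h] at h0
      omega
    rw [move_of_ne _ u l l' e e1 e2]
    exact h1 e he
  · rw [dv_move A u hne hpos, h2]
  · by_cases e2 : e = (u, l')
    · rw [e2, move_snd, move_snd, ← h3 (u, l') (e2 ▸ he)]
    · by_cases e1 : e = (u, l)
      · rw [e1, move_fst _ u hne, move_fst _ u hne, ← h3 (u, l) (e1 ▸ he)]
      · rw [move_of_ne _ u l l' e e1 e2, move_of_ne _ u l l' e e1 e2]
        exact h3 e he

/-- An edge between the classes of two free columns. -/
theorem move_mem_Kl_free {u : R} {l l' : C} (hPQ : P ×ˢ Q ⊆ E₀)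
    (hA : A ∈ Kl E₀ P Q Φ (Dl D l)) (hu : u ∈ P) (hl : l ∈ Q) (hl' : l' ∈ Q) (hne : l ≠ l')
    (hpos : 1 ≤ A (u, l')) : move A u l l' ∈ Kl E₀ P Q Φ (Dl D l') := by
  have m1 : (u, l) ∈ P ×ˢ Q := Finset.mem_product.mpr ⟨hu, hl⟩
  have m2 : (u, l') ∈ P ×ˢ Q := Finset.mem_product.mpr ⟨hu, hl'⟩
  rw [mem_Kl] at hA ⊢
  obtain ⟨h1, h2, h3⟩ := hA
  refine ⟨fun e he => ?_, ?_, fun e he => ?_⟩
  · have e1 : e ≠ (u, l) := fun h => he (h ▸ hPQ m1)
    have e2 : e ≠ (u, l') := fun h => he (h ▸ hPQ m2)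
    rw [move_of_ne _ u l l' e e1 e2]
    exact h1 e he
  · rw [dv_move A u hne hpos, h2]
    unfold Dl
    abel
  · have e1 : e ≠ (u, l) := fun h => he (h ▸ m1)
    have e2 : e ≠ (u, l') := fun h => he (h ▸ m2)
    rw [move_of_ne _ u l l' e e1 e2]
    exact h3 e he

/-- Moving a unit between two frozen cells of the same row is a bijection of classes. -/
theorem sum_Kl_move {u : R} {l l' : C} (hne : l ≠ l') (hpos : 1 ≤ Φ (u, l'))
    (h1 : (u, l) ∉ P ×ˢ Q) (h2 : (u, l') ∉ P ×ˢ Q) (hE : (u, l) ∈ E₀) (hE' : (u, l') ∈ E₀)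
    (D' : R ⊕ C → ℤ) (G : (R × C → ℕ) → ℝ) :
    ∑ B ∈ Kl E₀ P Q (move Φ u l l') (D' - eC l + eC l'), G B
      = ∑ A ∈ Kl E₀ P Q Φ D', G (move A u l l') := by
  symm
  refine Finset.sum_nbij' (fun A => move A u l l') (fun B => move B u l' l) ?_ ?_ ?_ ?_ ?_
  · intro A hA
    have hposA : 1 ≤ A (u, l') := by
      rw [(mem_Kl.mp hA).2.2 (u, l') h2]
      exact hpos
    exact move_mem_Kl hA hne hposA hE
  · intro B hB
    have hposB : 1 ≤ B (u, l) := by
      rw [(mem_Kl.mp hB).2.2 (u, l) h1, move_fst _ u hne]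
      omega
    have hmem := move_mem_Kl hB (Ne.symm hne) hposB hE'
    rw [move_move Φ u hne hpos] at hmem
    have hD : D' - eC l + eC l' - eC l' + eC l = D' := by abel
    rw [hD] at hmem
    exact hmem
  · intro A hA
    have hposA : 1 ≤ A (u, l') := by
      rw [(mem_Kl.mp hA).2.2 (u, l') h2]
      exact hpos
    exact move_move A u hne hposA
  · intro B hB
    have hposB : 1 ≤ B (u, l) := by
      rw [(mem_Kl.mp hB).2.2 (u, l) h1, move_fst _ u hne]
      omega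
    exact move_move B u (Ne.symm hne) hposB
  · intro A _
    rfl

theorem card_Kl_move {u : R} {l l' : C} (hne : l ≠ l') (hpos : 1 ≤ Φ (u, l'))
    (h1 : (u, l) ∉ P ×ˢ Q) (h2 : (u, l') ∉ P ×ˢ Q) (hE : (u, l) ∈ E₀) (hE' : (u, l') ∈ E₀)
    (D' : R ⊕ C → ℤ) :
    (Kl E₀ P Q (move Φ u l l') (D' - eC l + eC l')).card = (Kl E₀ P Q Φ D').card := by
  have h := sum_Kl_move (P := P) (Q := Q) hne hpos h1 h2 hE hE' D' (fun _ => (1 : ℝ))
  rw [Finset.sum_const, Finset.sum_const, nsmul_eq_mul, nsmul_eq_mul, mul_one, mul_one] at h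
  exact_mod_cast h

/-- Returning the extra unit of the frozen cell `(u, s)` to the free column `b` is injective. -/
theorem card_Kl_bump_le {u : R} {s b : C} (hPQ : P ×ˢ Q ⊆ E₀) (hu : u ∈ P) (hs : s ∉ Q)
    (hb : b ∈ Q) (D : R ⊕ C → ℤ) :
    (Kl E₀ P Q (bump Φ u s) (Dl D b)).card ≤ (Kl E₀ P Q Φ (Dl D s)).card := by
  have hbs : b ≠ s := fun h => hs (h ▸ hb)
  have m1 : (u, b) ∈ P ×ˢ Q := Finset.mem_product.mpr ⟨hu, hb⟩
  have m2 : (u, s) ∉ P ×ˢ Q := fun h => hs (Finset.mem_product.mp h).2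
  have hposB : ∀ B ∈ Kl E₀ P Q (bump Φ u s) (Dl D b), 1 ≤ B (u, s) := by
    intro B hB
    rw [(mem_Kl.mp hB).2.2 (u, s) m2]
    unfold bump
    rw [Function.update_self]
    omega
  apply Finset.card_le_card_of_injOn (fun B => move B u b s)
  · intro B hB
    have hpos := hposB B hB
    rw [Finset.mem_coe] at hB ⊢
    show move B u b s ∈ Kl E₀ P Q Φ (Dl D s)
    rw [mem_Kl] at hB ⊢
    obtain ⟨h1, h2, h3⟩ := hB
    have hsE : (u, s) ∈ E₀ := by
      by_contra hn
      have := h1 (u, s) hn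
      omega
    refine ⟨fun e he => ?_, ?_, fun e he => ?_⟩
    · have e1 : e ≠ (u, b) := fun h => he (h ▸ hPQ m1)
      have e2 : e ≠ (u, s) := fun h => he (h ▸ hsE)
      rw [move_of_ne _ u b s e e1 e2]
      exact h1 e he
    · rw [dv_move B u hbs hpos, h2]
      unfold Dl
      abel
    · have e1 : e ≠ (u, b) := fun h => he (h ▸ m1)
      by_cases e2 : e = (u, s)
      · rw [e2, move_snd, h3 (u, s) m2]
        unfold bump
        rw [Function.update_self]
        omega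
      · rw [move_of_ne _ u b s e e1 e2, h3 e he]
        unfold bump
        rw [Function.update_of_ne e2]
  · intro B hB B' hB' heq
    have hB1 := hposB B (Finset.mem_coe.mp hB)
    have hB2 := hposB B' (Finset.mem_coe.mp hB')
    have h1 := move_move B u hbs hB1
    have h2 := move_move B' u hbs hB2
    have heq' : move B u b s = move B' u b s := heq
    rw [← h1, ← h2, heq']

end Vale.Agent.Lib.P328.Poly
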