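import Vale.Agent.Lib.P328.Poly.Steps

/-!
# The comparison lemma (P)

For a rectangle `P ×ˢ Q` of cells and signed margins `D`, the class of the column `l` consists
of the tables on the rectangle with margins `Dl D l` (column `l` one unit short of `D`).  The
squared difference of the averages of `F` over two classes is at most `(|P| + 1) / |class b|`
times the energy of `F` over the unit moves inside the rows.
-/

namespace Vale.Agent.Lib.P328.Poly

open Finset Vale.Agent.Lib.P328.Hive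

variable {R C : Type*} [Fintype R] [Fintype C] [DecidableEq R] [DecidableEq C]

theorem Prow_Pcol_all (n : ℕ) : ProwStmt R C n ∧ PcolStmt R C n := by
  induction n with
  | zero =>
    have h0 : ProwStmt R C 0 := by
      intro E₀ P Q Φ D u s b F hcard hPQ hu
      rw [Finset.card_eq_zero.mp hcard] at hu
      exact absurd hu (Finset.notMem_empty u)
    exact ⟨h0, Pcol_of_Prow 0 h0⟩
  | succ n ih =>
    have h1 : ProwStmt R C (n + 1) := Prow_of_Pcol n ih.2
    exact ⟨h1, Pcol_of_Prow (n + 1) h1⟩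

/-- The comparison lemma for frozen classes. -/
theorem P_col_frozen (E₀ : Finset (R × C)) (P : Finset R) (Q : Finset C) (Φ : R × C → ℕ)
    (D : R ⊕ C → ℤ) (s b : C) (F : (R × C → ℕ) → ℝ) (hPQ : P ×ˢ Q ⊆ E₀) (hs : s ∈ Q)
    (hb : b ∈ Q) (hX : (Kl E₀ P Q Φ (Dl D s)).Nonempty) (hY : (Kl E₀ P Q Φ (Dl D b)).Nonempty) :
    (avg (Kl E₀ P Q Φ (Dl D b)) F - avg (Kl E₀ P Q Φ (Dl D s)) F) ^ 2
      ≤ ((P.card : ℝ) + 1) / ((Kl E₀ P Q Φ (Dl D b)).card : ℝ) * En E₀ P Q Φ D F :=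
  (Prow_Pcol_all P.card).2 E₀ P Q Φ D s b F rfl hPQ hs hb hX hY

theorem Kl_rect (P : Finset R) (Q : Finset C) (D : R ⊕ C → ℤ) :
    Kl (P ×ˢ Q) P Q 0 D = OmF (P ×ˢ Q) D := by
  ext T
  rw [mem_Kl, mem_OmF]
  constructor
  · rintro ⟨h1, h2, _⟩
    exact ⟨h1, h2⟩
  · rintro ⟨h1, h2⟩
    exact ⟨h1, h2, h1⟩

/-- The energy over the unit moves between the classes of the columns of a rectangle. -/
noncomputable def EnO (P : Finset R) (Q : Finset C) (D : R ⊕ C → ℤ) (F : (R × C → ℕ) → ℝ) : ℝ :=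
  ∑ l ∈ Q, ∑ A ∈ OmF (P ×ˢ Q) (Dl D l), ∑ u ∈ P, ∑ l' ∈ Q.erase l, ew F A u l l'

theorem EnO_eq (P : Finset R) (Q : Finset C) (D : R ⊕ C → ℤ) (F : (R × C → ℕ) → ℝ) :
    En (P ×ˢ Q) P Q 0 D F = EnO P Q D F := by
  unfold En EnO
  apply Finset.sum_congr rfl
  intro l _
  rw [Kl_rect]

/-- **Comparison lemma (P).**  For two columns `s, b` of the rectangle whose classes are both
nonempty, the squared difference of the class averages of `F` is at most
`(|P| + 1) / |class b|` times the energy of `F` over the unit moves. -/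
theorem P_col (P : Finset R) (Q : Finset C) (D : R ⊕ C → ℤ) (s b : C) (F : (R × C → ℕ) → ℝ)
    (hs : s ∈ Q) (hb : b ∈ Q) (hX : (OmF (P ×ˢ Q) (Dl D s)).Nonempty)
    (hY : (OmF (P ×ˢ Q) (Dl D b)).Nonempty) :
    (avg (OmF (P ×ˢ Q) (Dl D b)) F - avg (OmF (P ×ˢ Q) (Dl D s)) F) ^ 2
      ≤ ((P.card : ℝ) + 1) / ((OmF (P ×ˢ Q) (Dl D b)).card : ℝ) * EnO P Q D F := by
  have h := P_col_frozen (P ×ˢ Q) P Q 0 D s b F (Finset.Subset.refl _) hs hb
    (by rw [Kl_rect]; exact hX) (by rw [Kl_rect]; exact hY)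
  rw [Kl_rect, Kl_rect, EnO_eq] at h
  exact h

end Vale.Agent.Lib.P328.Poly
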