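import Vale.Agent.Lib.P328.Poly.Defs

/-!
# Comparison of energies of sub-rectangles with the energy of the full rectangle

Self-contained on `Poly/Defs` (the few facts on `move` and on sub-classes that are needed are
proved locally as private lemmas).
-/

namespace Vale.Agent.Lib.P328.Poly

open Finset Vale.Agent.Lib.P328.Hive

variable {R C : Type*} [Fintype R] [Fintype C] [DecidableEq R] [DecidableEq C]
variable {E₀ : Finset (R × C)} {P : Finset R} {Q : Finset C} {Φ T T' A : R × C → ℕ}
variable {D : R ⊕ C → ℤ}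

theorem En_nonneg (E₀ : Finset (R × C)) (P : Finset R) (Q : Finset C) (Φ : R × C → ℕ)
    (D : R ⊕ C → ℤ) (F : (R × C → ℕ) → ℝ) : 0 ≤ En E₀ P Q Φ D F := by
  unfold En
  exact Finset.sum_nonneg fun l _ => Finset.sum_nonneg fun A _ => Finset.sum_nonneg fun u _ =>
    Finset.sum_nonneg fun l' _ => ew_nonneg F A u l l'

theorem EnK_nonneg {κ : Type*} [DecidableEq κ] (E₀ : Finset (R × C)) (P : Finset R)
    (Q : Finset C) (Φ : R × C → ℕ) (D : R ⊕ C → ℤ) (F : (R × C → ℕ) → ℝ)
    (key : (R × C → ℕ) → κ) (k : κ) : 0 ≤ EnK E₀ P Q Φ D F key k := by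
  unfold EnK
  refine Finset.sum_nonneg fun l _ => Finset.sum_nonneg fun A _ => Finset.sum_nonneg fun u _ =>
    Finset.sum_nonneg fun l' _ => ?_
  split_ifs
  · exact ew_nonneg F A u l l'
  · exact le_refl _

theorem En1_nonneg (E₀ : Finset (R × C)) (P : Finset R) (Q : Finset C) (Φ : R × C → ℕ)
    (D : R ⊕ C → ℤ) (u : R) (s : C) (F : (R × C → ℕ) → ℝ) : 0 ≤ En1 E₀ P Q Φ D u s F := by
  unfold En1
  exact Finset.sum_nonneg fun A _ => Finset.sum_nonneg fun l _ => ew_nonneg F A u s l

/-- One edge into the frozen column is a term of the sum defining `En1`. -/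
theorem En1_term (F : (R × C → ℕ) → ℝ) (A : R × C → ℕ) (u : R) (s : C) {k : C} (hk : k ∈ Q)
    (hpos : 1 ≤ A (u, k)) : (F (move A u s k) - F A) ^ 2 ≤ ∑ l ∈ Q, ew F A u s l := by
  have h : (F (move A u s k) - F A) ^ 2 = ew F A u s k := by
    unfold ew
    rw [if_pos hpos]
  rw [h]
  exact Finset.single_le_sum (f := fun l => ew F A u s l) (fun l _ => ew_nonneg F A u s l) hk

/-- Away from its two cells a move does nothing (local copy, proved from the definition). -/
private theorem move_apply_of_ne (T : R × C → ℕ) (u : R) (l l' : C) (e : R × C)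
    (h1 : e ≠ (u, l)) (h2 : e ≠ (u, l')) : move T u l l' e = T e := by
  unfold move
  rw [Function.update_of_ne h2, Function.update_of_ne h1]

private theorem move_apply_fst (T : R × C → ℕ) (u : R) {l l' : C} (hne : l ≠ l') :
    move T u l l' (u, l) = T (u, l) + 1 := by
  unfold move
  rw [Function.update_of_ne (fun h => hne (Prod.ext_iff.mp h).2), Function.update_self]

private theorem sub_col (hT : ∀ e, e ∉ P ×ˢ Q → T e = Φ e) (s : C) (D' : R ⊕ C → ℤ) :
    Kl E₀ P (Q.erase s) T D' ⊆ Kl E₀ P Q Φ D' := by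
  intro B hB
  rw [mem_Kl] at hB ⊢
  refine ⟨hB.1, hB.2.1, fun e he => ?_⟩
  have he' : e ∉ P ×ˢ Q.erase s := fun h =>
    he (Finset.product_subset_product_right (Finset.erase_subset _ _) h)
  exact (hB.2.2 e he').trans (hT e he)

private theorem sub_row (hT : ∀ e, e ∉ P ×ˢ Q → T e = Φ e) (u : R) (D' : R ⊕ C → ℤ) :
    Kl E₀ (P.erase u) Q T D' ⊆ Kl E₀ P Q Φ D' := by
  intro B hB
  rw [mem_Kl] at hB ⊢
  refine ⟨hB.1, hB.2.1, fun e he => ?_⟩
  have he' : e ∉ P.erase u ×ˢ Q := fun h =>
    he (Finset.product_subset_product_left (Finset.erase_subset _ _) h)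
  exact (hB.2.2 e he').trans (hT e he)

private theorem ite_ew_nonneg {κ : Type*} [DecidableEq κ] (F : (R × C → ℕ) → ℝ)
    (key : (R × C → ℕ) → κ) (k : κ) (A : R × C → ℕ) (u : R) (l l' : C) :
    0 ≤ (if key (move A u l l') = k then ew F A u l l' else 0) := by
  split_ifs
  · exact ew_nonneg F A u l l'
  · exact le_refl _

/-- Column step: the edges seen after the column `s` is frozen at the pattern of `T'` are
edges of the full rectangle whose target has the column `s` of `T'`. -/
theorem En_col_compare {u : R} {s : C} (hT : T ∈ Kl E₀ P Q Φ (Dl D s)) (hu : u ∈ P)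
    (hs : s ∈ Q) (hstar : ∀ u', T' (u', s) = T (u', s) + if u' = u then 1 else 0)
    (F : (R × C → ℕ) → ℝ) :
    En1 E₀ P (Q.erase s) T D u s F + En E₀ P (Q.erase s) (bump T u s) D F
      ≤ EnK E₀ P Q Φ D F (colKey s) (colKey s T') := by
  have hTΦ : ∀ e, e ∉ P ×ˢ Q → T e = Φ e := (mem_Kl.mp hT).2.2
  have hus : (u, s) ∈ P ×ˢ Q := Finset.mem_product.mpr ⟨hu, hs⟩
  have hbΦ : ∀ e, e ∉ P ×ˢ Q → bump T u s e = Φ e := by
    intro e he
    have hne : e ≠ (u, s) := fun h => he (h ▸ hus)
    unfold bump
    rw [Function.update_of_ne hne]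
    exact hTΦ e he
  unfold EnK
  rw [← Finset.add_sum_erase Q _ hs]
  apply add_le_add
  · -- the edges into the column `s`
    unfold En1
    refine le_trans ?_ (Finset.sum_le_sum_of_subset_of_nonneg (sub_col hTΦ s (Dl D s)) ?_)
    · apply Finset.sum_le_sum
      intro B hB
      have hBT : ∀ e, e ∉ P ×ˢ Q.erase s → B e = T e := (mem_Kl.mp hB).2.2
      have hcol : ∀ u', B (u', s) = T (u', s) := fun u' =>
        hBT (u', s) (fun h => Finset.notMem_erase s Q (Finset.mem_product.mp h).2)
      refine le_trans ?_ (Finset.single_le_sum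
        (f := fun u₀ => ∑ l' ∈ Q.erase s,
          if colKey s (move B u₀ s l') = colKey s T' then ew F B u₀ s l' else 0)
        (fun u₀ _ => Finset.sum_nonneg fun l' _ => ite_ew_nonneg F _ _ B u₀ s l') hu)
      apply Finset.sum_le_sum
      intro l hl
      have hls : s ≠ l := fun h => Finset.notMem_erase s Q (h ▸ hl)
      rw [if_pos]
      funext u'
      show move B u s l (u', s) = T' (u', s)
      rw [hstar u']
      by_cases h : u' = u
      · subst h
        rw [move_apply_fst B u' hls, hcol u', if_pos rfl]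
      · rw [move_apply_of_ne B u s l (u', s) (fun h' => h (Prod.ext_iff.mp h').1)
          (fun h' => h (Prod.ext_iff.mp h').1), hcol u', if_neg h, add_zero]
    · intro B _ _
      exact Finset.sum_nonneg fun u₀ _ => Finset.sum_nonneg fun l' _ =>
        ite_ew_nonneg F _ _ B u₀ s l'
  · -- the edges between the other free columns
    unfold En
    apply Finset.sum_le_sum
    intro l hl
    have hls : l ≠ s := Finset.ne_of_mem_erase hl
    refine le_trans ?_ (Finset.sum_le_sum_of_subset_of_nonneg (sub_col hbΦ s (Dl D l)) ?_)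
    · apply Finset.sum_le_sum
      intro B hB
      have hBT : ∀ e, e ∉ P ×ˢ Q.erase s → B e = bump T u s e := (mem_Kl.mp hB).2.2
      have hcol : ∀ u', B (u', s) = T' (u', s) := by
        intro u'
        rw [hBT (u', s) (fun h => Finset.notMem_erase s Q (Finset.mem_product.mp h).2), hstar u']
        unfold bump
        by_cases h : u' = u
        · subst h
          rw [Function.update_self, if_pos rfl]
        · rw [Function.update_of_ne (fun h' => h (Prod.ext_iff.mp h').1), if_neg h, add_zero]
      apply Finset.sum_le_sum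
      intro u' _
      refine le_trans ?_ (Finset.sum_le_sum_of_subset_of_nonneg
        (Finset.erase_subset_erase l (Finset.erase_subset s Q)) ?_)
      · apply Finset.sum_le_sum
        intro l' hl'
        have hl's : l' ≠ s := Finset.ne_of_mem_erase (Finset.mem_of_mem_erase hl')
        rw [if_pos]
        funext u''
        show move B u' l l' (u'', s) = T' (u'', s)
        rw [move_apply_of_ne B u' l l' (u'', s) (fun h' => hls (Prod.ext_iff.mp h').2.symm)
          (fun h' => hl's (Prod.ext_iff.mp h').2.symm), hcol u'']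
      · intro l' _ _
        exact ite_ew_nonneg F _ _ B u' l l'
    · intro B _ _
      exact Finset.sum_nonneg fun u₀ _ => Finset.sum_nonneg fun l' _ =>
        ite_ew_nonneg F _ _ B u₀ l l'

/-- Row step: the edges seen after the row `u` is frozen at the pattern of `T'` are edges of
the full rectangle whose target has the row `u` of `T'`. -/
theorem En_row_compare (hT' : ∀ e, e ∉ P ×ˢ Q → T' e = Φ e) (u : R)
    (D : R ⊕ C → ℤ) (F : (R × C → ℕ) → ℝ) :
    En E₀ (P.erase u) Q T' D F ≤ EnK E₀ P Q Φ D F (rowKey u) (rowKey u T') := by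
  unfold En EnK
  apply Finset.sum_le_sum
  intro l _
  refine le_trans ?_ (Finset.sum_le_sum_of_subset_of_nonneg (sub_row hT' u (Dl D l)) ?_)
  · apply Finset.sum_le_sum
    intro B hB
    have hBT : ∀ e, e ∉ P.erase u ×ˢ Q → B e = T' e := (mem_Kl.mp hB).2.2
    have hrow : ∀ l'', B (u, l'') = T' (u, l'') := fun l'' =>
      hBT (u, l'') (fun h => Finset.notMem_erase u P (Finset.mem_product.mp h).1)
    refine le_trans ?_ (Finset.sum_le_sum_of_subset_of_nonneg (Finset.erase_subset u P) ?_)
    · apply Finset.sum_le_sum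
      intro u' hu'
      have hu'u : u' ≠ u := Finset.ne_of_mem_erase hu'
      apply Finset.sum_le_sum
      intro l' _
      rw [if_pos]
      funext l''
      show move B u' l l' (u, l'') = T' (u, l'')
      rw [move_apply_of_ne B u' l l' (u, l'') (fun h' => hu'u (Prod.ext_iff.mp h').1.symm)
        (fun h' => hu'u (Prod.ext_iff.mp h').1.symm), hrow l'']
    · intro u₀ _ _
      exact Finset.sum_nonneg fun l' _ => ite_ew_nonneg F _ _ B u₀ l l'
  · intro B _ _
    exact Finset.sum_nonneg fun u₀ _ => Finset.sum_nonneg fun l' _ =>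
      ite_ew_nonneg F _ _ B u₀ l l'

/-- The points with a given key form at most one fibre (local copy). -/
private theorem fiber_weight_le' {α κ : Type*} [DecidableEq κ] (Y : Finset α) (ψ : α → κ)
    (k : κ) :
    ∑ y ∈ Y, (if ψ y = k then 1 / ((Y.filter (fun y' => ψ y' = ψ y)).card : ℝ) else 0) ≤ 1 := by
  rw [← Finset.sum_filter]
  have h : ∀ y ∈ Y.filter (fun y => ψ y = k),
      1 / ((Y.filter (fun y' => ψ y' = ψ y)).card : ℝ)
        = 1 / ((Y.filter (fun y' => ψ y' = k)).card : ℝ) := by
    intro y hy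
    rw [(Finset.mem_filter.mp hy).2]
  rw [Finset.sum_congr rfl h, Finset.sum_const, nsmul_eq_mul]
  by_cases h0 : (Y.filter (fun y' => ψ y' = k)).card = 0
  · rw [h0]
    simp
  · have h1 : ((Y.filter (fun y' => ψ y' = k)).card : ℝ) ≠ 0 := by exact_mod_cast h0
    rw [mul_one_div, div_self h1]

/-- Summing the keyed energies over a set, each divided by the size of its fibre. -/
theorem EnK_fiber_sum {κ : Type*} [DecidableEq κ] (E₀ : Finset (R × C)) (P : Finset R)
    (Q : Finset C) (Φ : R × C → ℕ) (D : R ⊕ C → ℤ) (F : (R × C → ℕ) → ℝ)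
    (Y : Finset (R × C → ℕ)) (key : (R × C → ℕ) → κ) :
    ∑ y ∈ Y, EnK E₀ P Q Φ D F key (key y) / ((Y.filter (fun y' => key y' = key y)).card : ℝ)
      ≤ En E₀ P Q Φ D F := by
  unfold EnK En
  simp only [Finset.sum_div]
  rw [Finset.sum_comm]
  apply Finset.sum_le_sum
  intro l _
  rw [Finset.sum_comm]
  apply Finset.sum_le_sum
  intro B _
  rw [Finset.sum_comm]
  apply Finset.sum_le_sum
  intro u _
  rw [Finset.sum_comm]
  apply Finset.sum_le_sum
  intro l' _
  have hw := fiber_weight_le' Y key (key (move B u l l'))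
  calc ∑ y ∈ Y, (if key (move B u l l') = key y then ew F B u l l' else 0)
          / ((Y.filter (fun y' => key y' = key y)).card : ℝ)
      = ew F B u l l' * ∑ y ∈ Y, (if key y = key (move B u l l')
          then 1 / ((Y.filter (fun y' => key y' = key y)).card : ℝ) else 0) := by
        rw [Finset.mul_sum]
        apply Finset.sum_congr rfl
        intro y _
        by_cases h : key y = key (move B u l l')
        · rw [if_pos h, if_pos h.symm, mul_one_div]
        · rw [if_neg h, if_neg (fun h' => h h'.symm), zero_div, mul_zero]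
    _ ≤ ew F B u l l' * 1 := mul_le_mul_of_nonneg_left hw (ew_nonneg F B u l l')
    _ = ew F B u l l' := mul_one _

end Vale.Agent.Lib.P328.Poly
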