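import Vale.Agent.Lib.P328.Poly.Defs

/-!
# Generic facts on couplings of uniform laws and on fibre averages
-/

namespace Vale.Agent.Lib.P328.Poly

open Finset

variable {α β κ κ' : Type*}

/-- Weighted Cauchy-Schwarz inequality: the square of a weighted sum is at most the total
weight times the weighted sum of squares, for nonnegative weights. -/
theorem gen_wsum_sq_le {ι : Type*} (s : Finset ι) (w d : ι → ℝ) (hw : ∀ i ∈ s, 0 ≤ w i) :
    (∑ i ∈ s, w i * d i) ^ 2 ≤ (∑ i ∈ s, w i) * ∑ i ∈ s, w i * d i ^ 2 := by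
  have h := Finset.sum_mul_sq_le_sq_mul_sq s (fun i => Real.sqrt (w i))
    (fun i => Real.sqrt (w i) * d i)
  have e1 : ∑ i ∈ s, Real.sqrt (w i) * (Real.sqrt (w i) * d i) = ∑ i ∈ s, w i * d i := by
    apply Finset.sum_congr rfl
    intro i hi
    rw [← mul_assoc, Real.mul_self_sqrt (hw i hi)]
  have e2 : ∑ i ∈ s, Real.sqrt (w i) ^ 2 = ∑ i ∈ s, w i := by
    apply Finset.sum_congr rfl
    intro i hi
    rw [Real.sq_sqrt (hw i hi)]
  have e3 : ∑ i ∈ s, (Real.sqrt (w i) * d i) ^ 2 = ∑ i ∈ s, w i * d i ^ 2 := by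
    apply Finset.sum_congr rfl
    intro i hi
    rw [mul_pow, Real.sq_sqrt (hw i hi)]
  rw [e1, e2, e3] at h
  exact h

theorem cpl_total {X : Finset α} {Y : Finset β} {W : α → β → ℝ} (h : IsCpl X Y W)
    (hX : X.Nonempty) : ∑ x ∈ X, ∑ y ∈ Y, W x y = 1 := by
  have hX0 : ((X.card : ℝ)) ≠ 0 := by
    exact_mod_cast (Finset.card_pos.mpr hX).ne'
  rw [Finset.sum_congr rfl (fun x hx => h.2.1 x hx), Finset.sum_const, nsmul_eq_mul,
    mul_one_div, div_self hX0]

theorem cpl_source_sum {X : Finset α} {Y : Finset β} {W : α → β → ℝ} (h : IsCpl X Y W)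
    (c : α → ℝ) : ∑ x ∈ X, ∑ y ∈ Y, W x y * c x = (∑ x ∈ X, c x) / X.card := by
  rw [Finset.sum_div]
  apply Finset.sum_congr rfl
  intro x hx
  rw [← Finset.sum_mul, h.2.1 x hx]
  ring

theorem cpl_target_sum {X : Finset α} {Y : Finset β} {W : α → β → ℝ} (h : IsCpl X Y W)
    (c : β → ℝ) : ∑ x ∈ X, ∑ y ∈ Y, W x y * c y = (∑ y ∈ Y, c y) / Y.card := by
  rw [Finset.sum_comm, Finset.sum_div]
  apply Finset.sum_congr rfl
  intro y hy
  rw [← Finset.sum_mul, h.2.2 y hy]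
  ring

/-- Jensen along a coupling. -/
theorem cpl_sq {X : Finset α} {Y : Finset β} {W : α → β → ℝ} (h : IsCpl X Y W)
    (hX : X.Nonempty) (hY : Y.Nonempty) (F : α → ℝ) (G : β → ℝ) :
    (avg Y G - avg X F) ^ 2 ≤ ∑ x ∈ X, ∑ y ∈ Y, W x y * (G y - F x) ^ 2 := by
  have _hY := hY
  have hdiff : avg Y G - avg X F = ∑ p ∈ X ×ˢ Y, W p.1 p.2 * (G p.2 - F p.1) := by
    unfold avg
    rw [← cpl_target_sum h G, ← cpl_source_sum h F, ← Finset.sum_sub_distrib,
      Finset.sum_product]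
    apply Finset.sum_congr rfl
    intro x _
    rw [← Finset.sum_sub_distrib]
    apply Finset.sum_congr rfl
    intro y _
    ring
  have hcs := gen_wsum_sq_le (X ×ˢ Y) (fun p => W p.1 p.2) (fun p => G p.2 - F p.1)
    (fun p _ => h.1 p.1 p.2)
  have hmass : ∑ p ∈ X ×ˢ Y, W p.1 p.2 = 1 := by
    rw [Finset.sum_product]
    exact cpl_total h hX
  have hR : ∑ p ∈ X ×ˢ Y, W p.1 p.2 * (G p.2 - F p.1) ^ 2
      = ∑ x ∈ X, ∑ y ∈ Y, W x y * (G y - F x) ^ 2 := Finset.sum_product _ _ _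
  rw [hmass, one_mul, hR] at hcs
  rw [hdiff]
  exact hcs

/-- Averaging the fibre averages gives back the sum. -/
theorem avg_fiber [DecidableEq κ] (X : Finset α) (φ : α → κ) (F : α → ℝ) :
    ∑ x ∈ X, avg (X.filter (fun x' => φ x' = φ x)) F = ∑ x ∈ X, F x := by
  rw [← Finset.sum_fiberwise_of_maps_to (g := φ) (t := X.image φ)
      (fun x hx => Finset.mem_image_of_mem φ hx)
      (fun x => avg (X.filter (fun x' => φ x' = φ x)) F),
    ← Finset.sum_fiberwise_of_maps_to (g := φ) (t := X.image φ)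
      (fun x hx => Finset.mem_image_of_mem φ hx) F]
  apply Finset.sum_congr rfl
  intro k hk
  obtain ⟨x0, hx0, hx0k⟩ := Finset.mem_image.mp hk
  have hne : (X.filter (fun x' => φ x' = k)).Nonempty :=
    ⟨x0, Finset.mem_filter.mpr ⟨hx0, hx0k⟩⟩
  have hcard : ((X.filter (fun x' => φ x' = k)).card : ℝ) ≠ 0 := by
    exact_mod_cast (Finset.card_pos.mpr hne).ne'
  have hconst : ∀ x ∈ X.filter (fun x' => φ x' = k),
      avg (X.filter (fun x' => φ x' = φ x)) F = avg (X.filter (fun x' => φ x' = k)) F := by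
    intro x hx
    rw [(Finset.mem_filter.mp hx).2]
  rw [Finset.sum_congr rfl hconst, Finset.sum_const, nsmul_eq_mul]
  unfold avg
  rw [mul_div_cancel₀ _ hcard]

/-- The points with a given key form at most one fibre. -/
theorem fiber_weight_le [DecidableEq κ] (Y : Finset α) (ψ : α → κ) (k : κ) :
    ∑ y ∈ Y, (if ψ y = k then 1 / ((Y.filter (fun y' => ψ y' = ψ y)).card : ℝ) else 0) ≤ 1 := by
  rw [← Finset.sum_filter]
  have hconst : ∀ y ∈ Y.filter (fun y => ψ y = k),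
      1 / ((Y.filter (fun y' => ψ y' = ψ y)).card : ℝ)
        = 1 / ((Y.filter (fun y' => ψ y' = k)).card : ℝ) := by
    intro y hy
    rw [(Finset.mem_filter.mp hy).2]
  rw [Finset.sum_congr rfl hconst, Finset.sum_const, nsmul_eq_mul, mul_one_div]
  exact div_self_le_one _

/-- Jensen along a coupling, after averaging over the fibres of two keys. -/
theorem cpl_fiber_sq [DecidableEq κ] [DecidableEq κ'] {X : Finset α} {Y : Finset β}
    {W : α → β → ℝ} (h : IsCpl X Y W) (hX : X.Nonempty) (hY : Y.Nonempty) (φ : α → κ)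
    (ψ : β → κ') (F : α → ℝ) (G : β → ℝ) :
    (avg Y G - avg X F) ^ 2 ≤ ∑ x ∈ X, ∑ y ∈ Y, W x y *
      (avg (Y.filter (fun y' => ψ y' = ψ y)) G - avg (X.filter (fun x' => φ x' = φ x)) F) ^ 2 := by
  have h1 := cpl_sq h hX hY (fun x => avg (X.filter (fun x' => φ x' = φ x)) F)
    (fun y => avg (Y.filter (fun y' => ψ y' = ψ y)) G)
  have eX : avg X (fun x => avg (X.filter (fun x' => φ x' = φ x)) F) = avg X F := by
    unfold avg
    rw [← avg_fiber X φ F]
    rfl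
  have eY : avg Y (fun y => avg (Y.filter (fun y' => ψ y' = ψ y)) G) = avg Y G := by
    unfold avg
    rw [← avg_fiber Y ψ G]
    rfl
  rw [eX, eY] at h1
  exact h1

theorem avg_sq_le (S : Finset α) (h : α → ℝ) : (avg S h) ^ 2 ≤ avg S (fun x => h x ^ 2) := by
  unfold avg
  rcases S.eq_empty_or_nonempty with hS | hS
  · rw [hS]
    simp
  · have hc : (0 : ℝ) < (S.card : ℝ) := by exact_mod_cast Finset.card_pos.mpr hS
    rw [div_pow, div_le_div_iff₀ (by positivity) hc]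
    have hcs := sq_sum_le_card_mul_sum_sq (s := S) (f := h)
    calc (∑ x ∈ S, h x) ^ 2 * (S.card : ℝ)
        ≤ ((S.card : ℝ) * ∑ x ∈ S, h x ^ 2) * (S.card : ℝ) :=
          mul_le_mul_of_nonneg_right hcs hc.le
      _ = (∑ x ∈ S, h x ^ 2) * (S.card : ℝ) ^ 2 := by ring

theorem avg_sub (S : Finset α) (F G : α → ℝ) :
    avg S F - avg S G = avg S (fun x => F x - G x) := by
  unfold avg
  rw [Finset.sum_sub_distrib, sub_div]

theorem sq_add_le (n : ℕ) (x y : ℝ) :
    (x + y) ^ 2 ≤ ((n : ℝ) + 2) * x ^ 2 + (((n : ℝ) + 2) / ((n : ℝ) + 1)) * y ^ 2 := by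
  have hn : (0 : ℝ) < (n : ℝ) + 1 := by positivity
  have h0 : 0 ≤ (((n : ℝ) + 1) * x - y) ^ 2 / ((n : ℝ) + 1) := div_nonneg (sq_nonneg _) hn.le
  have e : ((n : ℝ) + 2) * x ^ 2 + (((n : ℝ) + 2) / ((n : ℝ) + 1)) * y ^ 2 - (x + y) ^ 2
      = (((n : ℝ) + 1) * x - y) ^ 2 / ((n : ℝ) + 1) := by
    field_simp
    ring
  linarith

end Vale.Agent.Lib.P328.Poly
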