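import Vale.Agent.Lib.P328.Poly.StarFrozenOf
import Vale.Agent.Lib.P328.AM.Star
import Vale.Agent.Lib.P328.AM.StarTerminal

/-!
# Star couplings between frozen classes

Both statements follow from the star coupling (A) for the cell set `P ×ˢ Q`, after removing
the frozen cells (shift of the margins by the frozen part of the pattern); see
`StarFrozenOf`.
-/

namespace Vale.Agent.Lib.P328.Poly

open Finset Vale.Agent.Lib.P328.Hive

variable {R C : Type*} [Fintype R] [Fintype C] [DecidableEq R] [DecidableEq C]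

/-- The star coupling (A) for the rectangle `P ×ˢ Q`. -/
theorem starCouplingOn_rect (P : Finset R) (Q : Finset C) : AM.StarCouplingOn (P ×ˢ Q) :=
  AM.star_coupling_of_terminal AM.star_terminal (P ×ˢ Q).card (P ×ˢ Q) rfl

/-- Column star: the classes of two free columns `s ≠ b` are coupled so that the columns `s`
of the two tables differ by one unit in one free row. -/
theorem star_col_frozen (E₀ : Finset (R × C)) (P : Finset R) (Q : Finset C) (Φ : R × C → ℕ)
    (D : R ⊕ C → ℤ) (s b : C) (hPQ : P ×ˢ Q ⊆ E₀) (hs : s ∈ Q) (hb : b ∈ Q) (hsb : s ≠ b)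
    (hX : (Kl E₀ P Q Φ (Dl D s)).Nonempty) (hY : (Kl E₀ P Q Φ (Dl D b)).Nonempty) :
    ∃ W : (R × C → ℕ) → (R × C → ℕ) → ℝ,
      IsCpl (Kl E₀ P Q Φ (Dl D s)) (Kl E₀ P Q Φ (Dl D b)) W ∧
      ∀ T ∈ Kl E₀ P Q Φ (Dl D s), ∀ T' ∈ Kl E₀ P Q Φ (Dl D b), W T T' ≠ 0 →
        ∃ u ∈ P, ∀ u', T' (u', s) = T (u', s) + if u' = u then 1 else 0 :=
  star_col_frozen_of E₀ P Q (starCouplingOn_rect P Q) Φ D s b hPQ hsb hX hY

/-- Row star: `s` is a frozen column and `b` a free one; the class of `s` and the class of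
`b` with one more unit frozen at `(u, s)` are coupled so that the free parts of the rows `u`
differ by one unit in one free column. -/
theorem star_row_frozen (E₀ : Finset (R × C)) (P : Finset R) (Q : Finset C) (Φ : R × C → ℕ)
    (D : R ⊕ C → ℤ) (u : R) (s b : C) (hPQ : P ×ˢ Q ⊆ E₀) (hu : u ∈ P) (hs : s ∉ Q)
    (hb : b ∈ Q) (hX : (Kl E₀ P Q Φ (Dl D s)).Nonempty)
    (hY : (Kl E₀ P Q (bump Φ u s) (Dl D b)).Nonempty) :
    ∃ W : (R × C → ℕ) → (R × C → ℕ) → ℝ,
      IsCpl (Kl E₀ P Q Φ (Dl D s)) (Kl E₀ P Q (bump Φ u s) (Dl D b)) W ∧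
      ∀ T ∈ Kl E₀ P Q Φ (Dl D s), ∀ T' ∈ Kl E₀ P Q (bump Φ u s) (Dl D b), W T T' ≠ 0 →
        ∃ k ∈ Q, ∀ l ∈ Q, T (u, l) = T' (u, l) + if l = k then 1 else 0 :=
  star_row_frozen_of E₀ P Q (starCouplingOn_rect P Q) Φ D u s b hPQ hu hs hX hY

end Vale.Agent.Lib.P328.Poly
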