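import Vale.Agent.Lib.P328.Poly.Defs
import Vale.Agent.Lib.P328.AM.Defs

/-!
# Star couplings between frozen classes, from the star coupling on the free rectangle

`star_col_frozen_of` and `star_row_frozen_of` derive the two couplings of frozen classes from
the star coupling (A) for the cell set `P ×ˢ Q` (hypothesis `AM.StarCouplingOn (P ×ˢ Q)`),
after removing the frozen cells (shift of the margins by the frozen part of the pattern).  A table of a
frozen class `Kl E₀ P Q Φ D'` is the sum of its free part, a table on `P ×ˢ Q` with margins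
`D' - dv (frozenPart P Q Φ)`, and of the frozen part of `Φ`; this identifies the class with
`AM.OmF (P ×ˢ Q) (D' - dv (frozenPart P Q Φ))` and transports couplings.
-/

namespace Vale.Agent.Lib.P328.Poly

open Finset Vale.Agent.Lib.P328.Hive

variable {R C : Type*} [Fintype R] [Fintype C] [DecidableEq R] [DecidableEq C]

/-- The free part of a table: its values on the rectangle `P ×ˢ Q`, zero elsewhere. -/
def freePart (P : Finset R) (Q : Finset C) (T : R × C → ℕ) : R × C → ℕ :=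
  fun e => if e ∈ P ×ˢ Q then T e else 0

/-- The frozen part of a pattern: its values outside the rectangle `P ×ˢ Q`. -/
def frozenPart (P : Finset R) (Q : Finset C) (Φ : R × C → ℕ) : R × C → ℕ :=
  fun e => if e ∈ P ×ˢ Q then 0 else Φ e

theorem dv_add_fun (A B : R × C → ℕ) : dv (fun e => A e + B e) = dv A + dv B := by
  unfold dv
  rw [← Finset.sum_add_distrib]
  apply Finset.sum_congr rfl
  intro e _
  push_cast
  rw [add_smul]

theorem dv_indicator (e₀ : R × C) :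
    dv (fun e : R × C => if e = e₀ then 1 else 0) = chi e₀ := by
  unfold dv
  rw [Finset.sum_eq_single e₀]
  · simp
  · intro e _ he
    simp [he]
  · intro h
    exact absurd (Finset.mem_univ e₀) h

omit [Fintype R] [Fintype C] in
theorem chi_inr_ne_zero (e : R × C) (s : C) : chi e (Sum.inr s) ≠ 0 ↔ e.2 = s := by
  unfold chi
  by_cases h : e.2 = s
  · simp [h]
  · simp [h]

omit [Fintype R] [Fintype C] in
theorem chi_inl_ne_zero (e : R × C) (u : R) : chi e (Sum.inl u) ≠ 0 ↔ e.1 = u := by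
  unfold chi
  by_cases h : e.1 = u
  · simp [h]
  · simp [h]

variable {E₀ : Finset (R × C)} {P : Finset R} {Q : Finset C}

omit [Fintype R] [Fintype C] in
theorem freePart_add_frozenPart {Φ T : R × C → ℕ} (hT : ∀ e, e ∉ P ×ˢ Q → T e = Φ e) :
    (fun e => freePart P Q T e + frozenPart P Q Φ e) = T := by
  funext e
  unfold freePart frozenPart
  by_cases h : e ∈ P ×ˢ Q
  · simp [h]
  · simp [h, hT e h]

theorem freePart_mem {Φ T : R × C → ℕ} {D' : R ⊕ C → ℤ} (hT : T ∈ Kl E₀ P Q Φ D') :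
    freePart P Q T ∈ AM.OmF (P ×ˢ Q) (D' - dv (frozenPart P Q Φ)) := by
  rw [mem_Kl] at hT
  obtain ⟨-, h2, h3⟩ := hT
  rw [AM.mem_OmF]
  refine ⟨?_, ?_⟩
  · intro e he
    unfold freePart
    simp [he]
  · have h := dv_add_fun (freePart P Q T) (frozenPart P Q Φ)
    rw [freePart_add_frozenPart h3, h2] at h
    rw [h]
    abel

theorem frozenPart_zero {Φ : R × C → ℕ} {D' : R ⊕ C → ℤ} (hPQ : P ×ˢ Q ⊆ E₀)
    (hX : (Kl E₀ P Q Φ D').Nonempty) : ∀ e, e ∉ E₀ → frozenPart P Q Φ e = 0 := by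
  obtain ⟨T, hT⟩ := hX
  rw [mem_Kl] at hT
  obtain ⟨h1, -, h3⟩ := hT
  intro e he
  have hne : e ∉ P ×ˢ Q := fun h => he (hPQ h)
  unfold frozenPart
  simp only [hne, if_false]
  rw [← h3 e hne]
  exact h1 e he

theorem add_frozenPart_mem {Φ A : R × C → ℕ} {D'' : R ⊕ C → ℤ} (hPQ : P ×ˢ Q ⊆ E₀)
    (hΦ : ∀ e, e ∉ E₀ → frozenPart P Q Φ e = 0) (hA : A ∈ AM.OmF (P ×ˢ Q) D'') :
    (fun e => A e + frozenPart P Q Φ e) ∈ Kl E₀ P Q Φ (D'' + dv (frozenPart P Q Φ)) := by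
  rw [AM.mem_OmF] at hA
  obtain ⟨h1, h2⟩ := hA
  rw [mem_Kl]
  refine ⟨?_, ?_, ?_⟩
  · intro e he
    have hne : e ∉ P ×ˢ Q := fun h => he (hPQ h)
    simp only [h1 e hne, hΦ e he]
  · rw [dv_add_fun, h2]
  · intro e he
    simp only [h1 e he, zero_add]
    unfold frozenPart
    simp [he]

theorem freePart_add {Φ A : R × C → ℕ} {D'' : R ⊕ C → ℤ} (hA : A ∈ AM.OmF (P ×ˢ Q) D'') :
    freePart P Q (fun e => A e + frozenPart P Q Φ e) = A := by
  rw [AM.mem_OmF] at hA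
  funext e
  unfold freePart frozenPart
  by_cases h : e ∈ P ×ˢ Q
  · simp [h]
  · simp [h, hA.1 e h]

/-- Sums over a frozen class are sums over the tables on the free rectangle. -/
theorem sum_Kl_freePart {Φ : R × C → ℕ} {D' : R ⊕ C → ℤ} (hPQ : P ×ˢ Q ⊆ E₀)
    (hΦ : ∀ e, e ∉ E₀ → frozenPart P Q Φ e = 0) (G : (R × C → ℕ) → ℝ) :
    ∑ T ∈ Kl E₀ P Q Φ D', G (freePart P Q T)
      = ∑ A ∈ AM.OmF (P ×ˢ Q) (D' - dv (frozenPart P Q Φ)), G A := by
  apply Finset.sum_nbij' (fun T => freePart P Q T) (fun A e => A e + frozenPart P Q Φ e)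
  · intro T hT
    exact freePart_mem hT
  · intro A hA
    have h := add_frozenPart_mem hPQ hΦ hA
    rwa [sub_add_cancel] at h
  · intro T hT
    rw [mem_Kl] at hT
    exact freePart_add_frozenPart hT.2.2
  · intro A hA
    exact freePart_add hA
  · intro T _
    rfl

theorem card_Kl_freePart {Φ : R × C → ℕ} {D' : R ⊕ C → ℤ} (hPQ : P ×ˢ Q ⊆ E₀)
    (hΦ : ∀ e, e ∉ E₀ → frozenPart P Q Φ e = 0) :
    (Kl E₀ P Q Φ D').card = (AM.OmF (P ×ˢ Q) (D' - dv (frozenPart P Q Φ))).card := by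
  have h := sum_Kl_freePart (D' := D') hPQ hΦ (fun _ => (1 : ℝ))
  simp only [Finset.sum_const, nsmul_eq_mul, mul_one] at h
  exact_mod_cast h

/-- A coupling of the classes of tables on the free rectangle, read in the opposite
direction, is a coupling of the frozen classes. -/
theorem cpl_transfer {Φ₁ Φ₂ : R × C → ℕ} {D₁ D₂ : R ⊕ C → ℤ} (hPQ : P ×ˢ Q ⊆ E₀)
    (hX : (Kl E₀ P Q Φ₁ D₁).Nonempty) (hY : (Kl E₀ P Q Φ₂ D₂).Nonempty)
    (Rel : (R × C → ℕ) → (R × C → ℕ) → Prop)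
    (h : AM.UCpl (AM.OmF (P ×ˢ Q) (D₂ - dv (frozenPart P Q Φ₂)))
      (AM.OmF (P ×ˢ Q) (D₁ - dv (frozenPart P Q Φ₁))) Rel) :
    ∃ W : (R × C → ℕ) → (R × C → ℕ) → ℝ,
      IsCpl (Kl E₀ P Q Φ₁ D₁) (Kl E₀ P Q Φ₂ D₂) W ∧
      ∀ T ∈ Kl E₀ P Q Φ₁ D₁, ∀ T' ∈ Kl E₀ P Q Φ₂ D₂, W T T' ≠ 0 →
        Rel (freePart P Q T') (freePart P Q T) := by
  obtain ⟨κ, hκ0, hκrel, hκrow, hκcol⟩ := h
  have hΦ₁ := frozenPart_zero hPQ hX
  have hΦ₂ := frozenPart_zero hPQ hY
  refine ⟨fun T T' => κ (freePart P Q T') (freePart P Q T), ⟨?_, ?_, ?_⟩, ?_⟩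
  · intro T T'
    exact hκ0 _ _
  · intro T hT
    rw [sum_Kl_freePart hPQ hΦ₂ (fun A => κ A (freePart P Q T)),
      hκcol _ (freePart_mem hT), card_Kl_freePart hPQ hΦ₁]
  · intro T' hT'
    rw [sum_Kl_freePart hPQ hΦ₁ (fun A => κ (freePart P Q T') A),
      hκrow _ (freePart_mem hT'), card_Kl_freePart hPQ hΦ₂]
  · intro T hT T' hT' hW
    exact hκrel _ (freePart_mem hT') _ (freePart_mem hT) hW

theorem cnt_ne_zero_of_Kl {Φ : R × C → ℕ} {D' : R ⊕ C → ℤ}
    (hX : (Kl E₀ P Q Φ D').Nonempty) :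
    cnt (P ×ˢ Q) (D' - dv (frozenPart P Q Φ)) ≠ 0 := by
  obtain ⟨T, hT⟩ := hX
  rw [← AM.card_OmF]
  exact Finset.card_ne_zero_of_mem (freePart_mem hT)

/-- Column star, from the star coupling on the free rectangle. -/
theorem star_col_frozen_of (E₀ : Finset (R × C)) (P : Finset R) (Q : Finset C)
    (hA : AM.StarCouplingOn (P ×ˢ Q)) (Φ : R × C → ℕ)
    (D : R ⊕ C → ℤ) (s b : C) (hPQ : P ×ˢ Q ⊆ E₀) (hsb : s ≠ b)
    (hX : (Kl E₀ P Q Φ (Dl D s)).Nonempty) (hY : (Kl E₀ P Q Φ (Dl D b)).Nonempty) :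
    ∃ W : (R × C → ℕ) → (R × C → ℕ) → ℝ,
      IsCpl (Kl E₀ P Q Φ (Dl D s)) (Kl E₀ P Q Φ (Dl D b)) W ∧
      ∀ T ∈ Kl E₀ P Q Φ (Dl D s), ∀ T' ∈ Kl E₀ P Q Φ (Dl D b), W T T' ≠ 0 →
        ∃ u ∈ P, ∀ u', T' (u', s) = T (u', s) + if u' = u then 1 else 0 := by
  have hmarg : Dl D b - dv (frozenPart P Q Φ) + Pi.single (Sum.inr s) 1
      - Pi.single (Sum.inr b) 1 = Dl D s - dv (frozenPart P Q Φ) := by
    unfold Dl eC
    abel
  have hne : (Sum.inr b : R ⊕ C) ≠ Sum.inr s := fun h => hsb (Sum.inr.inj h).symm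
  have hstar := hA (Dl D b - dv (frozenPart P Q Φ)) (Sum.inr s) (Sum.inr b) hne
    (cnt_ne_zero_of_Kl hY) (by rw [hmarg]; exact cnt_ne_zero_of_Kl hX)
  rw [hmarg] at hstar
  obtain ⟨W, hW, hrel⟩ := cpl_transfer hPQ hX hY _ hstar
  refine ⟨W, hW, ?_⟩
  intro T hT T' hT' hWne
  obtain ⟨e, he, -, hoth⟩ := hrel T hT T' hT' hWne
  rw [chi_inr_ne_zero] at he
  obtain ⟨u₀, l₀⟩ := e
  simp only at he
  subst he
  have ha := freePart_mem hT'
  have ha' := freePart_mem hT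
  rw [AM.mem_OmF] at ha ha'
  have hd := congrFun ha.2 (Sum.inr l₀)
  have hd' := congrFun ha'.2 (Sum.inr l₀)
  rw [dv_inr] at hd hd'
  have hdiff : (Dl D l₀ - dv (frozenPart P Q Φ)) (Sum.inr l₀)
      = (Dl D b - dv (frozenPart P Q Φ)) (Sum.inr l₀) + 1 := by
    unfold Dl eC
    simp [hsb]
    ring
  have hrest : ∑ u ∈ Finset.univ.erase u₀, (freePart P Q T (u, l₀) : ℤ)
      = ∑ u ∈ Finset.univ.erase u₀, (freePart P Q T' (u, l₀) : ℤ) := by
    apply Finset.sum_congr rfl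
    intro u hu
    have hne' : ((u, l₀) : R × C) ≠ (u₀, l₀) := by
      intro h
      exact (Finset.ne_of_mem_erase hu) (Prod.mk.inj h).1
    rw [hoth (u, l₀) ((chi_inr_ne_zero _ _).mpr rfl) hne']
  have hs1 : (freePart P Q T (u₀, l₀) : ℤ)
      + ∑ u ∈ Finset.univ.erase u₀, (freePart P Q T (u, l₀) : ℤ)
      = ∑ u, (freePart P Q T (u, l₀) : ℤ) :=
    Finset.add_sum_erase Finset.univ (fun u => (freePart P Q T (u, l₀) : ℤ))
      (Finset.mem_univ u₀)
  have hs2 : (freePart P Q T' (u₀, l₀) : ℤ)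
      + ∑ u ∈ Finset.univ.erase u₀, (freePart P Q T' (u, l₀) : ℤ)
      = ∑ u, (freePart P Q T' (u, l₀) : ℤ) :=
    Finset.add_sum_erase Finset.univ (fun u => (freePart P Q T' (u, l₀) : ℤ))
      (Finset.mem_univ u₀)
  have hkey : freePart P Q T' (u₀, l₀) = freePart P Q T (u₀, l₀) + 1 := by
    have : (freePart P Q T' (u₀, l₀) : ℤ) = (freePart P Q T (u₀, l₀) : ℤ) + 1 := by
      linarith
    exact_mod_cast this
  have hmem : (u₀, l₀) ∈ P ×ˢ Q := by
    by_contra hnot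
    have : freePart P Q T' (u₀, l₀) = 0 := by
      unfold freePart
      simp [hnot]
    omega
  rw [mem_Kl] at hT hT'
  refine ⟨u₀, (Finset.mem_product.mp hmem).1, ?_⟩
  intro u'
  by_cases hu : u' = u₀
  · subst hu
    have e1 : freePart P Q T' (u', l₀) = T' (u', l₀) := by
      unfold freePart
      simp [hmem]
    have e2 : freePart P Q T (u', l₀) = T (u', l₀) := by
      unfold freePart
      simp [hmem]
    rw [e1, e2] at hkey
    simp [hkey]
  · simp only [hu, if_false, add_zero]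
    by_cases hm : (u', l₀) ∈ P ×ˢ Q
    · have hne' : ((u', l₀) : R × C) ≠ (u₀, l₀) := fun h => hu (Prod.mk.inj h).1
      have h := hoth (u', l₀) ((chi_inr_ne_zero _ _).mpr rfl) hne'
      unfold freePart at h
      simp only [hm, if_true] at h
      exact h.symm
    · rw [hT'.2.2 _ hm, hT.2.2 _ hm]

/-- Row star, from the star coupling on the free rectangle. -/
theorem star_row_frozen_of (E₀ : Finset (R × C)) (P : Finset R) (Q : Finset C)
    (hA : AM.StarCouplingOn (P ×ˢ Q)) (Φ : R × C → ℕ)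
    (D : R ⊕ C → ℤ) (u : R) (s b : C) (hPQ : P ×ˢ Q ⊆ E₀) (hu : u ∈ P) (hs : s ∉ Q)
    (hX : (Kl E₀ P Q Φ (Dl D s)).Nonempty)
    (hY : (Kl E₀ P Q (bump Φ u s) (Dl D b)).Nonempty) :
    ∃ W : (R × C → ℕ) → (R × C → ℕ) → ℝ,
      IsCpl (Kl E₀ P Q Φ (Dl D s)) (Kl E₀ P Q (bump Φ u s) (Dl D b)) W ∧
      ∀ T ∈ Kl E₀ P Q Φ (Dl D s), ∀ T' ∈ Kl E₀ P Q (bump Φ u s) (Dl D b), W T T' ≠ 0 →
        ∃ k ∈ Q, ∀ l ∈ Q, T (u, l) = T' (u, l) + if l = k then 1 else 0 := by
  have hus : ((u, s) : R × C) ∉ P ×ˢ Q := fun h => hs (Finset.mem_product.mp h).2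
  have hfr : frozenPart P Q (bump Φ u s)
      = fun e => frozenPart P Q Φ e + (if e = (u, s) then 1 else 0) := by
    funext e
    unfold frozenPart bump
    by_cases he : e = (u, s)
    · subst he
      simp [hus]
    · by_cases hm : e ∈ P ×ˢ Q
      · simp [hm, he]
      · simp [hm, he]
  have hdv : dv (frozenPart P Q (bump Φ u s)) = dv (frozenPart P Q Φ) + chi (u, s) := by
    rw [hfr, dv_add_fun, dv_indicator]
  have hmarg : Dl D b - dv (frozenPart P Q (bump Φ u s)) + Pi.single (Sum.inl u) 1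
      - Pi.single (Sum.inr b) 1 = Dl D s - dv (frozenPart P Q Φ) := by
    rw [hdv]
    unfold Dl eC chi
    abel
  have hne : (Sum.inr b : R ⊕ C) ≠ Sum.inl u := fun h => by cases h
  have hstar := hA (Dl D b - dv (frozenPart P Q (bump Φ u s))) (Sum.inl u) (Sum.inr b) hne
    (cnt_ne_zero_of_Kl hY) (by rw [hmarg]; exact cnt_ne_zero_of_Kl hX)
  rw [hmarg] at hstar
  obtain ⟨W, hW, hrel⟩ := cpl_transfer hPQ hX hY _ hstar
  refine ⟨W, hW, ?_⟩
  intro T hT T' hT' hWne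
  obtain ⟨e, he, -, hoth⟩ := hrel T hT T' hT' hWne
  rw [chi_inl_ne_zero] at he
  obtain ⟨u₀, k⟩ := e
  simp only at he
  subst he
  have ha := freePart_mem hT'
  have ha' := freePart_mem hT
  rw [AM.mem_OmF] at ha ha'
  have hd := congrFun ha.2 (Sum.inl u₀)
  have hd' := congrFun ha'.2 (Sum.inl u₀)
  rw [dv_inl] at hd hd'
  have hdiff : (Dl D s - dv (frozenPart P Q Φ)) (Sum.inl u₀)
      = (Dl D b - dv (frozenPart P Q (bump Φ u₀ s))) (Sum.inl u₀) + 1 := by
    rw [hdv]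
    unfold Dl eC chi
    simp
    ring
  have hrest : ∑ l ∈ Finset.univ.erase k, (freePart P Q T (u₀, l) : ℤ)
      = ∑ l ∈ Finset.univ.erase k, (freePart P Q T' (u₀, l) : ℤ) := by
    apply Finset.sum_congr rfl
    intro l hl
    have hne' : ((u₀, l) : R × C) ≠ (u₀, k) := by
      intro h
      exact (Finset.ne_of_mem_erase hl) (Prod.mk.inj h).2
    rw [hoth (u₀, l) ((chi_inl_ne_zero _ _).mpr rfl) hne']
  have hs1 : (freePart P Q T (u₀, k) : ℤ)
      + ∑ l ∈ Finset.univ.erase k, (freePart P Q T (u₀, l) : ℤ)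
      = ∑ l, (freePart P Q T (u₀, l) : ℤ) :=
    Finset.add_sum_erase Finset.univ (fun l => (freePart P Q T (u₀, l) : ℤ))
      (Finset.mem_univ k)
  have hs2 : (freePart P Q T' (u₀, k) : ℤ)
      + ∑ l ∈ Finset.univ.erase k, (freePart P Q T' (u₀, l) : ℤ)
      = ∑ l, (freePart P Q T' (u₀, l) : ℤ) :=
    Finset.add_sum_erase Finset.univ (fun l => (freePart P Q T' (u₀, l) : ℤ))
      (Finset.mem_univ k)
  have hkey : freePart P Q T (u₀, k) = freePart P Q T' (u₀, k) + 1 := by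
    have : (freePart P Q T (u₀, k) : ℤ) = (freePart P Q T' (u₀, k) : ℤ) + 1 := by
      linarith
    exact_mod_cast this
  have hmem : (u₀, k) ∈ P ×ˢ Q := by
    by_contra hnot
    have : freePart P Q T (u₀, k) = 0 := by
      unfold freePart
      simp [hnot]
    omega
  refine ⟨k, (Finset.mem_product.mp hmem).2, ?_⟩
  intro l hl
  have hm : (u₀, l) ∈ P ×ˢ Q := Finset.mem_product.mpr ⟨hu, hl⟩
  have e1 : freePart P Q T' (u₀, l) = T' (u₀, l) := by
    unfold freePart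
    simp [hm]
  have e2 : freePart P Q T (u₀, l) = T (u₀, l) := by
    unfold freePart
    simp [hm]
  by_cases hlk : l = k
  · subst hlk
    rw [e1, e2] at hkey
    simp [hkey]
  · simp only [hlk, if_false, add_zero]
    have hne' : ((u₀, l) : R × C) ≠ (u₀, k) := fun h => hlk (Prod.mk.inj h).2
    have h := hoth (u₀, l) ((chi_inl_ne_zero _ _).mpr rfl) hne'
    rw [e1, e2] at h
    exact h

end Vale.Agent.Lib.P328.Poly
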