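import Vale.Agent.Lib.P328.Poly.Gen
import Vale.Agent.Lib.P328.Poly.KlLemmas
import Vale.Agent.Lib.P328.Poly.EnLemmas
import Vale.Agent.Lib.P328.Poly.StarFrozen

/-!
# The two half-steps of the comparison lemma (P)

`PcolStmt n`: two classes of free columns, `n` free rows.  `ProwStmt n`: the source column is
frozen and the target class carries one more unit in a frozen cell of a free row.
-/

namespace Vale.Agent.Lib.P328.Poly

open Finset Vale.Agent.Lib.P328.Hive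

section

variable (R C : Type*) [Fintype R] [Fintype C] [DecidableEq R] [DecidableEq C]

/-- Column form of the comparison lemma for `n` free rows. -/
def PcolStmt (n : ℕ) : Prop :=
  ∀ (E₀ : Finset (R × C)) (P : Finset R) (Q : Finset C) (Φ : R × C → ℕ) (D : R ⊕ C → ℤ)
    (s b : C) (F : (R × C → ℕ) → ℝ), P.card = n → P ×ˢ Q ⊆ E₀ → s ∈ Q → b ∈ Q →
    (Kl E₀ P Q Φ (Dl D s)).Nonempty → (Kl E₀ P Q Φ (Dl D b)).Nonempty →
    (avg (Kl E₀ P Q Φ (Dl D b)) F - avg (Kl E₀ P Q Φ (Dl D s)) F) ^ 2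
      ≤ ((n : ℝ) + 1) / ((Kl E₀ P Q Φ (Dl D b)).card : ℝ) * En E₀ P Q Φ D F

/-- Row form of the comparison lemma for `n` free rows. -/
def ProwStmt (n : ℕ) : Prop :=
  ∀ (E₀ : Finset (R × C)) (P : Finset R) (Q : Finset C) (Φ : R × C → ℕ) (D : R ⊕ C → ℤ)
    (u : R) (s b : C) (F : (R × C → ℕ) → ℝ), P.card = n → P ×ˢ Q ⊆ E₀ → u ∈ P → s ∉ Q →
    b ∈ Q → (Kl E₀ P Q Φ (Dl D s)).Nonempty → (Kl E₀ P Q (bump Φ u s) (Dl D b)).Nonempty →
    (avg (Kl E₀ P Q (bump Φ u s) (Dl D b)) F - avg (Kl E₀ P Q Φ (Dl D s)) F) ^ 2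
      ≤ ((n : ℝ) + 1) / ((Kl E₀ P Q (bump Φ u s) (Dl D b)).card : ℝ) *
        (En1 E₀ P Q Φ D u s F + En E₀ P Q (bump Φ u s) D F)

end

variable {R C : Type*} [Fintype R] [Fintype C] [DecidableEq R] [DecidableEq C]

theorem bump_apply (Φ : R × C → ℕ) (u : R) (s : C) (e : R × C) :
    bump Φ u s e = if e = (u, s) then Φ e + 1 else Φ e := by
  unfold bump
  rw [Function.update_apply]
  split_ifs with h
  · rw [h]
  · rfl

theorem Dl_shift (D : R ⊕ C → ℤ) (s k : C) : Dl D s - eC s + eC k = Dl D k := by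
  unfold Dl
  abel

/-- Column half-step: the column form follows from the row form with the same number of rows. -/
theorem Pcol_of_Prow (n : ℕ) (hrow : ProwStmt R C n) : PcolStmt R C n := by
  intro E₀ P Q Φ D s b F hcard hPQ hs hb hX hY
  by_cases hsb : s = b
  · subst hsb
    rw [sub_self]
    have h0 := En_nonneg E₀ P Q Φ D F
    have h00 : (0 : ℝ) ≤ ((n : ℝ) + 1) / ((Kl E₀ P Q Φ (Dl D s)).card : ℝ) := by positivity
    nlinarith [mul_nonneg h00 h0]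
  obtain ⟨W, hW, hstar⟩ := star_col_frozen E₀ P Q Φ D s b hPQ hs hb hsb hX hY
  have h1 := cpl_fiber_sq hW hX hY (colKey s) (colKey s) F F
  have hYpos : (0 : ℝ) < ((Kl E₀ P Q Φ (Dl D b)).card : ℝ) := by
    exact_mod_cast Finset.card_pos.mpr hY
  have h2 : ∀ T ∈ Kl E₀ P Q Φ (Dl D s), ∀ T' ∈ Kl E₀ P Q Φ (Dl D b),
      W T T' * (avg ((Kl E₀ P Q Φ (Dl D b)).filter (fun y' => colKey s y' = colKey s T')) F
        - avg ((Kl E₀ P Q Φ (Dl D s)).filter (fun x' => colKey s x' = colKey s T)) F) ^ 2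
      ≤ W T T' * (((n : ℝ) + 1) * (EnK E₀ P Q Φ D F (colKey s) (colKey s T') /
          (((Kl E₀ P Q Φ (Dl D b)).filter (fun y' => colKey s y' = colKey s T')).card : ℝ))) := by
    intro T hT T' hT'
    by_cases hW0 : W T T' = 0
    · rw [hW0, zero_mul, zero_mul]
    obtain ⟨u, hu, hst⟩ := hstar T hT T' hT' hW0
    apply mul_le_mul_of_nonneg_left _ (hW.1 T T')
    rw [← Kl_col_fiber hT s, ← Kl_col_fiber hT' s]
    have hcg : Kl E₀ P (Q.erase s) (bump T u s) (Dl D b) = Kl E₀ P (Q.erase s) T' (Dl D b) := by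
      apply Kl_congr
      intro e he
      obtain ⟨e1, e2⟩ := e
      by_cases h2 : e2 = s
      · subst h2
        rw [hst e1, bump_apply]
        by_cases h3 : e1 = u
        · subst h3
          simp
        · have : (e1, e2) ≠ (u, e2) := fun h => h3 (Prod.ext_iff.mp h).1
          simp [this, h3]
      · have hne : (e1, e2) ≠ (u, s) := fun h => h2 (Prod.ext_iff.mp h).2
        have hnot : (e1, e2) ∉ P ×ˢ Q := by
          intro hmem
          apply he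
          rw [Finset.mem_product] at hmem ⊢
          exact ⟨hmem.1, Finset.mem_erase.mpr ⟨h2, hmem.2⟩⟩
        rw [bump_apply, if_neg hne, (mem_Kl.mp hT).2.2 _ hnot, (mem_Kl.mp hT').2.2 _ hnot]
    have hsub : P ×ˢ Q.erase s ⊆ E₀ :=
      (Finset.product_subset_product (Finset.Subset.refl P) (Finset.erase_subset s Q)).trans hPQ
    have hr := hrow E₀ P (Q.erase s) T D u s b F hcard hsub hu (Finset.notMem_erase s Q)
      (Finset.mem_erase.mpr ⟨Ne.symm hsb, hb⟩) ⟨T, self_mem_Kl hT _ _⟩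
      (by rw [hcg]; exact ⟨T', self_mem_Kl hT' _ _⟩)
    rw [hcg] at hr
    have hcmp := En_col_compare hT hu hs hst F
    have hcpos : (0 : ℝ) ≤ ((n : ℝ) + 1) / ((Kl E₀ P (Q.erase s) T' (Dl D b)).card : ℝ) := by
      positivity
    calc (avg (Kl E₀ P (Q.erase s) T' (Dl D b)) F - avg (Kl E₀ P (Q.erase s) T (Dl D s)) F) ^ 2
        ≤ ((n : ℝ) + 1) / ((Kl E₀ P (Q.erase s) T' (Dl D b)).card : ℝ) *
          (En1 E₀ P (Q.erase s) T D u s F + En E₀ P (Q.erase s) (bump T u s) D F) := hr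
      _ ≤ ((n : ℝ) + 1) / ((Kl E₀ P (Q.erase s) T' (Dl D b)).card : ℝ) *
          EnK E₀ P Q Φ D F (colKey s) (colKey s T') := mul_le_mul_of_nonneg_left hcmp hcpos
      _ = ((n : ℝ) + 1) * (EnK E₀ P Q Φ D F (colKey s) (colKey s T') /
          ((Kl E₀ P (Q.erase s) T' (Dl D b)).card : ℝ)) := by ring
  calc (avg (Kl E₀ P Q Φ (Dl D b)) F - avg (Kl E₀ P Q Φ (Dl D s)) F) ^ 2
      ≤ ∑ x ∈ Kl E₀ P Q Φ (Dl D s), ∑ y ∈ Kl E₀ P Q Φ (Dl D b), W x y *
        (avg ((Kl E₀ P Q Φ (Dl D b)).filter (fun y' => colKey s y' = colKey s y)) F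
          - avg ((Kl E₀ P Q Φ (Dl D s)).filter (fun x' => colKey s x' = colKey s x)) F) ^ 2 := h1
    _ ≤ ∑ x ∈ Kl E₀ P Q Φ (Dl D s), ∑ y ∈ Kl E₀ P Q Φ (Dl D b), W x y *
        (((n : ℝ) + 1) * (EnK E₀ P Q Φ D F (colKey s) (colKey s y) /
          (((Kl E₀ P Q Φ (Dl D b)).filter (fun y' => colKey s y' = colKey s y)).card : ℝ))) :=
        Finset.sum_le_sum fun x hx => Finset.sum_le_sum fun y hy => h2 x hx y hy
    _ = (∑ y ∈ Kl E₀ P Q Φ (Dl D b), ((n : ℝ) + 1) *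
          (EnK E₀ P Q Φ D F (colKey s) (colKey s y) /
          (((Kl E₀ P Q Φ (Dl D b)).filter (fun y' => colKey s y' = colKey s y)).card : ℝ)))
          / ((Kl E₀ P Q Φ (Dl D b)).card : ℝ) := cpl_target_sum hW _
    _ ≤ (((n : ℝ) + 1) * En E₀ P Q Φ D F) / ((Kl E₀ P Q Φ (Dl D b)).card : ℝ) := by
        apply div_le_div_of_nonneg_right _ hYpos.le
        rw [← Finset.mul_sum]
        exact mul_le_mul_of_nonneg_left (EnK_fiber_sum E₀ P Q Φ D F _ (colKey s)) (by positivity)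
    _ = ((n : ℝ) + 1) / ((Kl E₀ P Q Φ (Dl D b)).card : ℝ) * En E₀ P Q Φ D F := by ring

theorem alg_aux (a c e x : ℝ) (ha : 0 < a + 1) :
    (a + 2) * x + ((a + 2) / (a + 1)) * ((a + 1) / c * e) = (a + 2) * x + (a + 2) * (e / c) := by
  field_simp

/-- The hybrid class of the row step, written with the pattern of the target table. -/
theorem hybrid_eq {E₀ : Finset (R × C)} {P : Finset R} {Q : Finset C} {Φ : R × C → ℕ}
    {D : R ⊕ C → ℤ} {u : R} {s b k : C} {T T' : R × C → ℕ} (hs : s ∉ Q)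
    (hT : T ∈ Kl E₀ P Q Φ (Dl D s)) (hT' : T' ∈ Kl E₀ P Q (bump Φ u s) (Dl D b)) (hk : k ∈ Q)
    (hst : ∀ l ∈ Q, T (u, l) = T' (u, l) + if l = k then 1 else 0) :
    Kl E₀ (P.erase u) Q T' (Dl D k)
      = Kl E₀ (P.erase u) Q (move T u s k) (Dl D s - eC s + eC k) := by
  have husPQ : (u, s) ∉ P ×ˢ Q := by
    intro h
    exact hs (Finset.mem_product.mp h).2
  have hsk : s ≠ k := fun h => hs (h ▸ hk)
  rw [Dl_shift]
  apply Kl_congr
  intro e he
  obtain ⟨e1, e2⟩ := e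
  by_cases hek : (e1, e2) = (u, k)
  · rw [hek, move_snd]
    have := hst k hk
    rw [if_pos rfl] at this
    omega
  by_cases hes : (e1, e2) = (u, s)
  · rw [hes, move_fst T u hsk, (mem_Kl.mp hT').2.2 _ husPQ, bump_apply, if_pos rfl,
      (mem_Kl.mp hT).2.2 _ husPQ]
  rw [move_of_ne T u s k _ hes hek]
  by_cases hrow1 : e1 = u ∧ e2 ∈ Q
  · obtain ⟨h4, h5⟩ := hrow1
    subst h4
    have := hst e2 h5
    have hne : e2 ≠ k := fun h => hek (by rw [h])
    rw [if_neg hne] at this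
    omega
  · have hnot : (e1, e2) ∉ P ×ˢ Q := by
      intro hmem
      rw [Finset.mem_product] at hmem
      by_cases h6 : e1 = u
      · exact hrow1 ⟨h6, hmem.2⟩
      · exact he (Finset.mem_product.mpr ⟨Finset.mem_erase.mpr ⟨h6, hmem.1⟩, hmem.2⟩)
    rw [(mem_Kl.mp hT').2.2 _ hnot, bump_apply, if_neg hes, (mem_Kl.mp hT).2.2 _ hnot]

/-- The bound of the row step for one coupled pair of tables. -/
theorem row_term (n : ℕ) (hcol : PcolStmt R C n) {E₀ : Finset (R × C)} {P : Finset R}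
    {Q : Finset C} {Φ : R × C → ℕ} {D : R ⊕ C → ℤ} {u : R} {s b k : C} {T T' : R × C → ℕ}
    (F : (R × C → ℕ) → ℝ) (hcard : P.card = n + 1) (hPQ : P ×ˢ Q ⊆ E₀) (hu : u ∈ P)
    (hs : s ∉ Q) (hb : b ∈ Q) (hus : (u, s) ∈ E₀)
    (hT : T ∈ Kl E₀ P Q Φ (Dl D s)) (hT' : T' ∈ Kl E₀ P Q (bump Φ u s) (Dl D b)) (hk : k ∈ Q)
    (hst : ∀ l ∈ Q, T (u, l) = T' (u, l) + if l = k then 1 else 0) :
    (avg (Kl E₀ (P.erase u) Q T' (Dl D b)) F - avg (Kl E₀ (P.erase u) Q T (Dl D s)) F) ^ 2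
      ≤ ((n : ℝ) + 2) * avg (Kl E₀ (P.erase u) Q T (Dl D s)) (fun A => ∑ l ∈ Q, ew F A u s l)
        + ((n : ℝ) + 2) * (EnK E₀ P Q (bump Φ u s) D F (rowKey u) (rowKey u T') /
            ((Kl E₀ (P.erase u) Q T' (Dl D b)).card : ℝ)) := by
  have hsubE : (P.erase u) ×ˢ Q ⊆ E₀ :=
    (Finset.product_subset_product (Finset.erase_subset u P) (Finset.Subset.refl Q)).trans hPQ
  have hcard' : (P.erase u).card = n := by
    rw [Finset.card_erase_of_mem hu, hcard]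
    rfl
  have hsk : s ≠ k := fun h => hs (h ▸ hk)
  have hTk : 1 ≤ T (u, k) := by
    have := hst k hk
    rw [if_pos rfl] at this
    omega
  have hukE : (u, k) ∈ E₀ := hPQ (Finset.mem_product.mpr ⟨hu, hk⟩)
  have hus' : (u, s) ∉ (P.erase u) ×ˢ Q := by
    intro h
    exact hs (Finset.mem_product.mp h).2
  have huk' : (u, k) ∉ (P.erase u) ×ˢ Q := by
    intro h
    exact Finset.notMem_erase u P (Finset.mem_product.mp h).1
  have hH := hybrid_eq hs hT hT' hk hst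
  have hTself : T ∈ Kl E₀ (P.erase u) Q T (Dl D s) := self_mem_Kl hT _ _
  have hT'self : T' ∈ Kl E₀ (P.erase u) Q T' (Dl D b) := self_mem_Kl hT' _ _
  have hHne : (Kl E₀ (P.erase u) Q T' (Dl D k)).Nonempty := by
    rw [hH]
    exact ⟨_, move_mem_Kl hTself hsk hTk hus⟩
  have hy := hcol E₀ (P.erase u) Q T' D k b F hcard' hsubE hk hb hHne ⟨T', hT'self⟩
  have hsum := sum_Kl_move (E₀ := E₀) (P := P.erase u) (Q := Q) (Φ := T) hsk hTk hus' huk'
    hus hukE (Dl D s) F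
  have hcd := card_Kl_move (E₀ := E₀) (P := P.erase u) (Q := Q) (Φ := T) hsk hTk hus' huk'
    hus hukE (Dl D s)
  have hx0 : avg (Kl E₀ (P.erase u) Q T' (Dl D k)) F - avg (Kl E₀ (P.erase u) Q T (Dl D s)) F
      = avg (Kl E₀ (P.erase u) Q T (Dl D s)) (fun A => F (move A u s k) - F A) := by
    rw [← avg_sub]
    congr 1
    unfold avg
    rw [hH, hsum, hcd]
  have hx : (avg (Kl E₀ (P.erase u) Q T' (Dl D k)) F
      - avg (Kl E₀ (P.erase u) Q T (Dl D s)) F) ^ 2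
      ≤ avg (Kl E₀ (P.erase u) Q T (Dl D s)) (fun A => ∑ l ∈ Q, ew F A u s l) := by
    rw [hx0]
    refine (avg_sq_le _ _).trans ?_
    unfold avg
    apply div_le_div_of_nonneg_right _ (Nat.cast_nonneg _)
    apply Finset.sum_le_sum
    intro A hA
    apply En1_term F A u s hk
    rw [(mem_Kl.mp hA).2.2 _ huk']
    exact hTk
  have hn1 : (0 : ℝ) < (n : ℝ) + 1 := by positivity
  have hEK := En_row_compare (E₀ := E₀) (P := P) (Q := Q) (Φ := bump Φ u s) (T' := T')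
    (mem_Kl.mp hT').2.2 u D F
  have hcpos : (0 : ℝ) ≤ ((n : ℝ) + 1) / ((Kl E₀ (P.erase u) Q T' (Dl D b)).card : ℝ) := by
    positivity
  have hy' : (avg (Kl E₀ (P.erase u) Q T' (Dl D b)) F
      - avg (Kl E₀ (P.erase u) Q T' (Dl D k)) F) ^ 2
      ≤ ((n : ℝ) + 1) / ((Kl E₀ (P.erase u) Q T' (Dl D b)).card : ℝ) *
        EnK E₀ P Q (bump Φ u s) D F (rowKey u) (rowKey u T') :=
    hy.trans (mul_le_mul_of_nonneg_left hEK hcpos)
  have hsq := sq_add_le n
    (avg (Kl E₀ (P.erase u) Q T' (Dl D k)) F - avg (Kl E₀ (P.erase u) Q T (Dl D s)) F)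
    (avg (Kl E₀ (P.erase u) Q T' (Dl D b)) F - avg (Kl E₀ (P.erase u) Q T' (Dl D k)) F)
  have hn2 : (0 : ℝ) ≤ (n : ℝ) + 2 := by positivity
  have hn3 : (0 : ℝ) ≤ ((n : ℝ) + 2) / ((n : ℝ) + 1) := by positivity
  have hsplit : avg (Kl E₀ (P.erase u) Q T' (Dl D b)) F - avg (Kl E₀ (P.erase u) Q T (Dl D s)) F
      = (avg (Kl E₀ (P.erase u) Q T' (Dl D k)) F - avg (Kl E₀ (P.erase u) Q T (Dl D s)) F)
        + (avg (Kl E₀ (P.erase u) Q T' (Dl D b)) F
          - avg (Kl E₀ (P.erase u) Q T' (Dl D k)) F) := by ring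
  rw [hsplit, ← alg_aux (n : ℝ) _ _ _ hn1]
  exact hsq.trans (add_le_add (mul_le_mul_of_nonneg_left hx hn2)
    (mul_le_mul_of_nonneg_left hy' hn3))

/-- Row half-step: the row form for `n + 1` rows follows from the column form for `n` rows. -/
theorem Prow_of_Pcol (n : ℕ) (hcol : PcolStmt R C n) : ProwStmt R C (n + 1) := by
  intro E₀ P Q Φ D u s b F hcard hPQ hu hs hb hX hY
  obtain ⟨W, hW, hstar⟩ := star_row_frozen E₀ P Q Φ D u s b hPQ hu hs hb hX hY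
  have h1 := cpl_fiber_sq hW hX hY (rowKey u) (rowKey u) F F
  have hYpos : (0 : ℝ) < ((Kl E₀ P Q (bump Φ u s) (Dl D b)).card : ℝ) := by
    exact_mod_cast Finset.card_pos.mpr hY
  have husPQ : (u, s) ∉ P ×ˢ Q := by
    intro h
    exact hs (Finset.mem_product.mp h).2
  have hus : (u, s) ∈ E₀ := by
    obtain ⟨T', hT'⟩ := hY
    by_contra h
    have h0 := (mem_Kl.mp hT').1 (u, s) h
    have h3 := (mem_Kl.mp hT').2.2 (u, s) husPQ
    rw [bump_apply, if_pos rfl, h0] at h3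
    omega
  have h2 : ∀ T ∈ Kl E₀ P Q Φ (Dl D s), ∀ T' ∈ Kl E₀ P Q (bump Φ u s) (Dl D b),
      W T T' * (avg ((Kl E₀ P Q (bump Φ u s) (Dl D b)).filter
          (fun y' => rowKey u y' = rowKey u T')) F
        - avg ((Kl E₀ P Q Φ (Dl D s)).filter (fun x' => rowKey u x' = rowKey u T)) F) ^ 2
      ≤ W T T' * (((n : ℝ) + 2) * avg ((Kl E₀ P Q Φ (Dl D s)).filter
            (fun x' => rowKey u x' = rowKey u T)) (fun A => ∑ l ∈ Q, ew F A u s l))
        + W T T' * (((n : ℝ) + 2) * (EnK E₀ P Q (bump Φ u s) D F (rowKey u) (rowKey u T') /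
          (((Kl E₀ P Q (bump Φ u s) (Dl D b)).filter
            (fun y' => rowKey u y' = rowKey u T')).card : ℝ))) := by
    intro T hT T' hT'
    by_cases hW0 : W T T' = 0
    · rw [hW0, zero_mul, zero_mul, zero_mul, add_zero]
    obtain ⟨k, hk, hst⟩ := hstar T hT T' hT' hW0
    rw [← mul_add]
    apply mul_le_mul_of_nonneg_left _ (hW.1 T T')
    rw [← Kl_row_fiber hT u, ← Kl_row_fiber hT' u]
    exact row_term n hcol F hcard hPQ hu hs hb hus hT hT' hk hst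
  have hcardle : ((Kl E₀ P Q (bump Φ u s) (Dl D b)).card : ℝ)
      ≤ ((Kl E₀ P Q Φ (Dl D s)).card : ℝ) := by
    exact_mod_cast card_Kl_bump_le hPQ hu hs hb D
  have hE1 := En1_nonneg E₀ P Q Φ D u s F
  have hn2 : (0 : ℝ) ≤ (n : ℝ) + 2 := by positivity
  have hcast : (((n + 1 : ℕ) : ℝ) + 1) = (n : ℝ) + 2 := by
    push_cast
    ring
  rw [hcast]
  have h3 : ∑ x ∈ Kl E₀ P Q Φ (Dl D s), ∑ y ∈ Kl E₀ P Q (bump Φ u s) (Dl D b),
        (W x y * (((n : ℝ) + 2) * avg ((Kl E₀ P Q Φ (Dl D s)).filter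
            (fun x' => rowKey u x' = rowKey u x)) (fun A => ∑ l ∈ Q, ew F A u s l))
        + W x y * (((n : ℝ) + 2) * (EnK E₀ P Q (bump Φ u s) D F (rowKey u) (rowKey u y) /
          (((Kl E₀ P Q (bump Φ u s) (Dl D b)).filter
            (fun y' => rowKey u y' = rowKey u y)).card : ℝ))))
      = (∑ x ∈ Kl E₀ P Q Φ (Dl D s), ((n : ℝ) + 2) * avg ((Kl E₀ P Q Φ (Dl D s)).filter
            (fun x' => rowKey u x' = rowKey u x)) (fun A => ∑ l ∈ Q, ew F A u s l))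
          / ((Kl E₀ P Q Φ (Dl D s)).card : ℝ)
        + (∑ y ∈ Kl E₀ P Q (bump Φ u s) (Dl D b), ((n : ℝ) + 2) *
          (EnK E₀ P Q (bump Φ u s) D F (rowKey u) (rowKey u y) /
          (((Kl E₀ P Q (bump Φ u s) (Dl D b)).filter
            (fun y' => rowKey u y' = rowKey u y)).card : ℝ)))
          / ((Kl E₀ P Q (bump Φ u s) (Dl D b)).card : ℝ) := by
    rw [← cpl_source_sum hW, ← cpl_target_sum hW, ← Finset.sum_add_distrib]
    apply Finset.sum_congr rfl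
    intro x _
    rw [← Finset.sum_add_distrib]
  have h4 : (∑ x ∈ Kl E₀ P Q Φ (Dl D s), ((n : ℝ) + 2) * avg ((Kl E₀ P Q Φ (Dl D s)).filter
            (fun x' => rowKey u x' = rowKey u x)) (fun A => ∑ l ∈ Q, ew F A u s l))
          / ((Kl E₀ P Q Φ (Dl D s)).card : ℝ)
      ≤ (((n : ℝ) + 2) * En1 E₀ P Q Φ D u s F)
          / ((Kl E₀ P Q (bump Φ u s) (Dl D b)).card : ℝ) := by
    rw [← Finset.mul_sum, avg_fiber]
    have hnum : (0 : ℝ) ≤ ((n : ℝ) + 2) * En1 E₀ P Q Φ D u s F := mul_nonneg hn2 hE1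
    exact div_le_div_of_nonneg_left hnum hYpos hcardle
  have h5 : (∑ y ∈ Kl E₀ P Q (bump Φ u s) (Dl D b), ((n : ℝ) + 2) *
          (EnK E₀ P Q (bump Φ u s) D F (rowKey u) (rowKey u y) /
          (((Kl E₀ P Q (bump Φ u s) (Dl D b)).filter
            (fun y' => rowKey u y' = rowKey u y)).card : ℝ)))
          / ((Kl E₀ P Q (bump Φ u s) (Dl D b)).card : ℝ)
      ≤ (((n : ℝ) + 2) * En E₀ P Q (bump Φ u s) D F)
          / ((Kl E₀ P Q (bump Φ u s) (Dl D b)).card : ℝ) := by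
    apply div_le_div_of_nonneg_right _ hYpos.le
    rw [← Finset.mul_sum]
    exact mul_le_mul_of_nonneg_left
      (EnK_fiber_sum E₀ P Q (bump Φ u s) D F _ (rowKey u)) hn2
  have h6 := h1.trans (Finset.sum_le_sum fun x hx => Finset.sum_le_sum fun y hy => h2 x hx y hy)
  rw [h3] at h6
  have h7 := h6.trans (add_le_add h4 h5)
  have h8 : (((n : ℝ) + 2) * En1 E₀ P Q Φ D u s F)
          / ((Kl E₀ P Q (bump Φ u s) (Dl D b)).card : ℝ)
        + (((n : ℝ) + 2) * En E₀ P Q (bump Φ u s) D F)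
          / ((Kl E₀ P Q (bump Φ u s) (Dl D b)).card : ℝ)
      = ((n : ℝ) + 2) / ((Kl E₀ P Q (bump Φ u s) (Dl D b)).card : ℝ) *
        (En1 E₀ P Q Φ D u s F + En E₀ P Q (bump Φ u s) D F) := by ring
  rw [h8] at h7
  exact h7

end Vale.Agent.Lib.P328.Poly
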